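import Mathlib

/-! # P147: step lists, positions, path space, annealed model hypotheses -/

open MeasureTheory Set
open scoped ENNReal

namespace Vale.Agent.Lib.P147

variable {U V : Type*} [AddCommGroup V]

/-- displacement of a finite list of steps -/
def disp (st : U → V) (l : List U) : V := (l.map st).sum

@[simp] lemma disp_nil (st : U → V) : disp st [] = 0 := rfl

@[simp] lemma disp_cons (st : U → V) (e : U) (l : List U) :
    disp st (e :: l) = st e + disp st l := by simp [disp]

@[simp] lemma disp_append (st : U → V) (g f : List U) :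
    disp st (g ++ f) = disp st g + disp st f := by simp [disp]

/-- position after the first `r` steps of the list (saturating at the end of the list) -/
def pos (st : U → V) (l : List U) (r : ℕ) : V := disp st (l.take r)

@[simp] lemma pos_zero (st : U → V) (l : List U) : pos st l 0 = 0 := by simp [pos]

lemma pos_of_length_le (st : U → V) {l : List U} {r : ℕ} (h : l.length ≤ r) :
    pos st l r = disp st l := by simp [pos, List.take_of_length_le h]

@[simp] lemma pos_length (st : U → V) (l : List U) : pos st l l.length = disp st l :=
  pos_of_length_le st le_rfl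

lemma pos_append_of_le (st : U → V) {g : List U} (f : List U) {r : ℕ} (h : r ≤ g.length) :
    pos st (g ++ f) r = pos st g r := by
  simp [pos, List.take_append_of_le_length h]

lemma pos_append_add (st : U → V) (g f : List U) (r : ℕ) :
    pos st (g ++ f) (g.length + r) = disp st g + pos st f r := by
  have h : (g ++ f).take (g.length + r) = g ++ f.take r := by
    simp [List.take_append]
  simp only [pos, h, disp_append]

lemma pos_take (st : U → V) (g : List U) (k r : ℕ) :
    pos st (g.take k) r = pos st g (min k r) := by
  simp [pos, List.take_take, min_comm]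

lemma pos_drop (st : U → V) (g : List U) (k r : ℕ) :
    pos st (g.drop k) r = pos st g (k + r) - pos st g k := by
  have h : g = g.take k ++ g.drop k := (List.take_append_drop k g).symm
  by_cases hk : k ≤ g.length
  · have hl : (g.take k).length = k := by simp [hk]
    have h1 : pos st g (k + r) = disp st (g.take k) + pos st (g.drop k) r := by
      conv_lhs => rw [h]
      have := pos_append_add st (g.take k) (g.drop k) r
      rw [hl] at this
      exact this
    have h2 : pos st g k = disp st (g.take k) := rfl
    rw [h1, h2]; abel
  · have hk' : g.length ≤ k := by omega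
    have h0 : g.drop k = [] := List.drop_of_length_le hk'
    rw [h0, pos_of_length_le st (by omega : g.length ≤ k + r), pos_of_length_le st hk']
    simp [pos]

lemma pos_succ (st : U → V) (l : List U) (r : ℕ) (h : r < l.length) :
    pos st l (r + 1) = pos st l r + st (l[r]) := by
  have h2 : l.take (r + 1) = l.take r ++ [l[r]] := (List.take_append_getElem h).symm
  simp only [pos, h2, disp_append, disp_cons, disp_nil, add_zero]

/-- the first `n` entries of a step sequence, as a list -/
def pre (s : ℕ → U) (n : ℕ) : List U := (List.range n).map s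

@[simp] lemma length_pre (s : ℕ → U) (n : ℕ) : (pre s n).length = n := by simp [pre]

@[simp] lemma pre_zero (s : ℕ → U) : pre s 0 = [] := by simp [pre]

lemma pre_succ (s : ℕ → U) (n : ℕ) : pre s (n + 1) = pre s n ++ [s n] := by
  simp [pre, List.range_succ]

/-- the shifted sequence -/
def shift (n : ℕ) (s : ℕ → U) : ℕ → U := fun r => s (n + r)

@[simp] lemma shift_zero (s : ℕ → U) : shift 0 s = s := by
  funext r; simp [shift]

lemma shift_shift (m n : ℕ) (s : ℕ → U) : shift n (shift m s) = shift (m + n) s := by
  funext r; simp [shift, add_assoc]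

lemma pre_add (s : ℕ → U) (m n : ℕ) : pre s (m + n) = pre s m ++ pre (shift m s) n := by
  induction n with
  | zero => simp
  | succ n ih =>
    rw [← add_assoc, pre_succ, ih, pre_succ, List.append_assoc]
    rfl

lemma take_pre (s : ℕ → U) (m n : ℕ) : (pre s n).take m = pre s (min m n) := by
  rw [pre, ← List.map_take, List.take_range, pre]

/-- position of the sequence at time `n` -/
def X (st : U → V) (s : ℕ → U) (n : ℕ) : V := disp st (pre s n)

@[simp] lemma X_zero (st : U → V) (s : ℕ → U) : X st s 0 = 0 := by simp [X]

lemma X_add (st : U → V) (s : ℕ → U) (m n : ℕ) :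
    X st s (m + n) = X st s m + X st (shift m s) n := by
  simp [X, pre_add]

lemma X_succ (st : U → V) (s : ℕ → U) (n : ℕ) : X st s (n + 1) = X st s n + st (s n) := by
  simp [X, pre_succ]

lemma pos_pre (st : U → V) (s : ℕ → U) (m n : ℕ) : pos st (pre s n) m = X st s (min m n) := by
  simp [pos, X, take_pre]

lemma pos_pre_of_le (st : U → V) (s : ℕ → U) {m n : ℕ} (h : m ≤ n) :
    pos st (pre s n) m = X st s m := by
  rw [pos_pre, min_eq_left h]

/-- cylinder of all step sequences starting with the list `l` -/
def cyl (l : List U) : Set (ℕ → U) := {s | pre s l.length = l}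

lemma mem_cyl {l : List U} {s : ℕ → U} : s ∈ cyl l ↔ pre s l.length = l := Iff.rfl

lemma mem_cyl_pre (s : ℕ → U) (n : ℕ) : s ∈ cyl (pre s n) := by
  simp [cyl]

@[simp] lemma cyl_nil : cyl ([] : List U) = univ := by
  ext s; simp [cyl]

lemma mem_cyl_append {g f : List U} {s : ℕ → U} :
    s ∈ cyl (g ++ f) ↔ s ∈ cyl g ∧ shift g.length s ∈ cyl f := by
  simp only [mem_cyl, List.length_append, pre_add]
  constructor
  · intro h
    have hlen : (pre s g.length).length = g.length := length_pre _ _
    exact List.append_inj h hlen
  · rintro ⟨h1, h2⟩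
    rw [h1, h2]

lemma pre_of_mem_cyl {l : List U} {s : ℕ → U} (h : s ∈ cyl l) : pre s l.length = l := h

lemma X_of_mem_cyl (st : U → V) {l : List U} {s : ℕ → U} (h : s ∈ cyl l) :
    X st s l.length = disp st l := by
  simp only [X]; rw [pre_of_mem_cyl h]

lemma X_of_mem_cyl_of_le (st : U → V) {l : List U} {s : ℕ → U} (h : s ∈ cyl l) {m : ℕ}
    (hm : m ≤ l.length) : X st s m = pos st l m := by
  conv_rhs => rw [← pre_of_mem_cyl h]
  rw [pos_pre_of_le st s hm]

section Measurable

variable [MeasurableSpace U] [MeasurableSingletonClass U]

lemma measurable_shift (n : ℕ) : Measurable (shift n : (ℕ → U) → ℕ → U) := by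
  refine measurable_pi_iff.2 fun r => ?_
  exact measurable_pi_apply (n + r)

lemma measurableSet_pre_eq (n : ℕ) (l : List U) : MeasurableSet {s : ℕ → U | pre s n = l} := by
  induction n generalizing l with
  | zero =>
    by_cases h : l = []
    · subst h; simp
    · have : {s : ℕ → U | pre s 0 = l} = ∅ := by
        ext s; simp [Ne.symm h]
      rw [this]; exact MeasurableSet.empty
  | succ n ih =>
    rcases List.eq_nil_or_concat l with h | ⟨l', e, h⟩
    · subst h
      have : {s : ℕ → U | pre s (n + 1) = []} = ∅ := by
        ext s; simp [pre_succ]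
      rw [this]; exact MeasurableSet.empty
    · have : {s : ℕ → U | pre s (n + 1) = l} = {s | pre s n = l'} ∩ {s | s n = e} := by
        ext s
        simp only [mem_setOf_eq, mem_inter_iff, pre_succ, h, List.concat_eq_append]
        constructor
        · intro h'
          have := List.append_inj' h' (by simp)
          exact ⟨this.1, by simpa using this.2⟩
        · rintro ⟨h1, h2⟩; rw [h1, h2]
      rw [this]
      have h3 : MeasurableSet {s : ℕ → U | s n = e} := by
        have := (measurable_pi_apply (X := fun _ : ℕ => U) n) (measurableSet_singleton e)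
        exact this
      exact (ih l').inter h3

lemma measurableSet_cyl (l : List U) : MeasurableSet (cyl l) :=
  measurableSet_pre_eq l.length l

variable [Countable U]

lemma measurableSet_pre_mem (n : ℕ) (P : List U → Prop) :
    MeasurableSet {s : ℕ → U | P (pre s n)} := by
  have : {s : ℕ → U | P (pre s n)} = ⋃ l : {l : List U // P l}, {s | pre s n = l.1} := by
    ext s
    simp only [mem_setOf_eq, mem_iUnion]
    constructor
    · intro h; exact ⟨⟨_, h⟩, rfl⟩
    · rintro ⟨⟨l, hl⟩, h⟩; simp only at h; rw [h]; exact hl
  rw [this]
  exact MeasurableSet.iUnion fun l => measurableSet_pre_eq n l.1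

lemma measurableSet_X (st : U → V) (n : ℕ) (P : V → Prop) :
    MeasurableSet {s : ℕ → U | P (X st s n)} :=
  measurableSet_pre_mem n (fun l => P (disp st l))

end Measurable

/-- the hypotheses on the path law used by the core argument -/
structure Model (st : U → V) [MeasurableSpace U] (Q : Measure (ℕ → U)) : Prop where
  w1 : ∀ g f : List U, (∀ a < g.length, ∀ b < f.length, pos st g a ≠ disp st g + pos st f b) →
    Q (cyl (g ++ f)) = Q (cyl g) * Q (cyl f)
  w2 : ∀ g f : List U, Q (cyl (g ++ f)) ≤ Q (cyl f)
  w3 : ∀ l : List U, Q (cyl l) ≠ 0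

/-- a sum is at most a sum over a covering family -/
lemma tsum_le_tsum_of_cover {α β : Type*} (φ : α → ℝ≥0∞) (ψ : β → ℝ≥0∞) (p : β → α)
    (h : ∀ a, φ a ≠ 0 → ∃ b, p b = a ∧ φ a ≤ ψ b) : ∑' a, φ a ≤ ∑' b, ψ b := by
  classical
  choose sec hsec1 hsec2 using h
  have hinj : Function.Injective (fun a : Function.support φ => sec a.1 a.2) := by
    intro a a' haa
    have h1 := hsec1 a.1 a.2
    have h2 := hsec1 a'.1 a'.2
    simp only at haa
    apply Subtype.ext
    rw [← h1, ← h2, haa]
  calc ∑' a, φ a = ∑' a : Function.support φ, φ a.1 :=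
        (tsum_subtype_eq_of_support_subset (f := φ) (s := Function.support φ) subset_rfl).symm
    _ ≤ ∑' a : Function.support φ, ψ (sec a.1 a.2) :=
        ENNReal.tsum_le_tsum fun a => hsec2 a.1 a.2
    _ ≤ ∑' b, ψ b := ENNReal.tsum_comp_le_tsum_of_injective hinj ψ

end Vale.Agent.Lib.P147
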