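import Vale.Agent.Lib.P147.Path

/-! # P147: last-block recursion and the finite mean of the block length -/

open MeasureTheory Set Filter Topology
open scoped ENNReal

noncomputable section

namespace Vale.Agent.Lib.P147

open scoped Classical

variable {U V : Type*} [AddCommGroup V] {st : U → V} {ht : V →+ ℤ}
variable [MeasurableSpace U] {Q : Measure (ℕ → U)}

variable (st ht Q) in
/-- weighted sum over `Up` lists of length at most `B` -/
def upSum (F : V → ℝ≥0∞) (B : ℕ) : ℝ≥0∞ :=
  ∑' g, if Up st ht g ∧ g.length ≤ B then Q (cyl g) * F (disp st g) else 0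

lemma upSum_mono (F : V → ℝ≥0∞) {B B' : ℕ} (h : B ≤ B') :
    upSum st ht Q F B ≤ upSum st ht Q F B' := by
  refine ENNReal.tsum_le_tsum fun g => ?_
  by_cases hg : Up st ht g ∧ g.length ≤ B
  · rw [if_pos hg, if_pos ⟨hg.1, hg.2.trans h⟩]
  · rw [if_neg hg]; exact zero_le

lemma up_nil_upSum (F : V → ℝ≥0∞) (B : ℕ) : Q (cyl []) * F 0 ≤ upSum st ht Q F B := by
  have := ENNReal.le_tsum (f := fun g : List U =>
    if Up st ht g ∧ g.length ≤ B then Q (cyl g) * F (disp st g) else 0) []
  unfold upSum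
  simpa [up_nil] using this

/-- the last-block recursion -/
lemma upSum_le (m : Model st Q) (hQ : Q (cyl []) ≤ 1) (F : V → ℝ≥0∞) (B : ℕ) :
    upSum st ht Q F B ≤ F 0 + ∑' b, if Block st ht b ∧ b.length ≤ B then
      Q (cyl b) * upSum st ht Q (fun x => F (x + disp st b)) (B - b.length) else 0 := by
  unfold upSum
  have hsplit : ∀ g : List U, (if Up st ht g ∧ g.length ≤ B then Q (cyl g) * F (disp st g) else 0) ≤
      (if g = [] then F 0 else 0) +
      (if g ≠ [] ∧ Up st ht g ∧ g.length ≤ B then Q (cyl g) * F (disp st g) else 0) := by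
    intro g
    by_cases hg : g = []
    · subst hg
      simp only [List.length_nil, zero_le, and_true, disp_nil, if_true, ne_eq, not_true_eq_false,
        false_and, if_false, add_zero]
      by_cases h0 : Up st ht ([] : List U)
      · rw [if_pos h0]
        calc Q (cyl []) * F 0 ≤ 1 * F 0 := by gcongr
          _ = F 0 := one_mul _
      · rw [if_neg h0]; exact zero_le
    · by_cases hp : Up st ht g ∧ g.length ≤ B
      · rw [if_pos hp, if_neg hg, if_pos ⟨hg, hp⟩, zero_add]
      · rw [if_neg hp]; exact zero_le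
  refine (ENNReal.tsum_le_tsum hsplit).trans ?_
  rw [ENNReal.tsum_add, tsum_ite_eq]
  refine add_le_add le_rfl ?_
  -- the cover
  have hcover := tsum_le_tsum_of_cover
    (fun g : List U => if g ≠ [] ∧ Up st ht g ∧ g.length ≤ B then Q (cyl g) * F (disp st g) else 0)
    (fun p : List U × List U => if Block st ht p.1 ∧ p.1.length ≤ B then
      Q (cyl p.1) * (if Up st ht p.2 ∧ p.2.length ≤ B - p.1.length then
        Q (cyl p.2) * F (disp st p.2 + disp st p.1) else 0) else 0)
    (fun p => p.2 ++ p.1) (by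
      intro g hg
      have hcond : g ≠ [] ∧ Up st ht g ∧ g.length ≤ B := by
        by_contra hc
        simp [hc] at hg
      obtain ⟨g', b, rfl, hg', hb⟩ := exists_last_block hcond.2.1 hcond.1
      have hlen := hcond.2.2
      rw [List.length_append] at hlen
      refine ⟨(b, g'), rfl, ?_⟩
      simp only
      rw [if_pos hcond, if_pos ⟨hb, by omega⟩, if_pos ⟨hg', by omega⟩, m.split_up hg' hb.up,
        disp_append]
      rw [mul_comm (Q (cyl g')), mul_assoc])
  refine hcover.trans ?_
  rw [ENNReal.tsum_prod']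
  refine ENNReal.tsum_le_tsum fun b => ?_
  by_cases hb : Block st ht b ∧ b.length ≤ B
  · simp only [if_pos hb]
    rw [ENNReal.tsum_mul_left]
  · simp [if_neg hb]

variable (st ht Q) in
/-- total mass of `Up` lists of length at most `B` -/
def upY (B : ℕ) : ℝ≥0∞ := upSum st ht Q (fun _ => 1) B

variable (st ht Q) in
/-- truncated mean of the block length -/
def blockTrunc (M : ℕ) : ℝ≥0∞ :=
  ∑' b, if Block st ht b then Q (cyl b) * ((min b.length M : ℕ) : ℝ≥0∞) else 0

variable (st ht Q) in
/-- total mass of blocks -/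
def blockMass : ℝ≥0∞ := ∑' b, if Block st ht b then Q (cyl b) else 0

variable (st ht Q) in
/-- the mean of the block length -/
def blockMean : ℝ≥0∞ := ∑' b, if Block st ht b then Q (cyl b) * (b.length : ℝ≥0∞) else 0

lemma trunc_mul_upY_le (m : Model st Q) (hQ : Q (cyl []) ≤ 1)
    (hmass : blockMass st ht Q ≤ 1) (M B : ℕ) :
    blockTrunc st ht Q M * upY st ht Q B ≤ ((B + M : ℕ) : ℝ≥0∞) := by
  induction B using Nat.strong_induction_on with
  | _ B ih =>
    set e := blockTrunc st ht Q M with he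
    have h1 : upY st ht Q B ≤ 1 + ∑' b, if Block st ht b ∧ b.length ≤ B then
        Q (cyl b) * upY st ht Q (B - b.length) else 0 := by
      have := upSum_le (ht := ht) m hQ (fun _ => 1) B
      simpa [upY] using this
    -- the sum with the induction hypothesis
    have h2 : e * (∑' b, if Block st ht b ∧ b.length ≤ B then
        Q (cyl b) * upY st ht Q (B - b.length) else 0) ≤
        ∑' b, if Block st ht b then Q (cyl b) * ((B + M - min b.length M : ℕ) : ℝ≥0∞) else 0 := by
      rw [← ENNReal.tsum_mul_left]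
      refine ENNReal.tsum_le_tsum fun b => ?_
      by_cases hb : Block st ht b ∧ b.length ≤ B
      · rw [if_pos hb, if_pos hb.1]
        have hpos := hb.1.length_pos
        have h3 := ih (B - b.length) (by omega)
        calc e * (Q (cyl b) * upY st ht Q (B - b.length))
            = Q (cyl b) * (e * upY st ht Q (B - b.length)) := by ring
          _ ≤ Q (cyl b) * ((B - b.length + M : ℕ) : ℝ≥0∞) := by gcongr
          _ ≤ Q (cyl b) * ((B + M - min b.length M : ℕ) : ℝ≥0∞) := by
              have h5 := hb.2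
              have h6 := min_le_left b.length M
              have h7 : B - b.length + M ≤ B + M - min b.length M := by omega
              exact mul_le_mul_right (Nat.cast_le.2 h7) _
      · rw [if_neg hb]
        simp only [mul_zero]
        exact zero_le
    have h3 : e + ∑' b, (if Block st ht b then
        Q (cyl b) * ((B + M - min b.length M : ℕ) : ℝ≥0∞) else 0) ≤ ((B + M : ℕ) : ℝ≥0∞) := by
      rw [he, blockTrunc, ← ENNReal.tsum_add]
      have h4 : ∀ b : List U, ((if Block st ht b then Q (cyl b) * ((min b.length M : ℕ) : ℝ≥0∞) else 0) +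
          (if Block st ht b then Q (cyl b) * ((B + M - min b.length M : ℕ) : ℝ≥0∞) else 0)) =
          (if Block st ht b then Q (cyl b) else 0) * ((B + M : ℕ) : ℝ≥0∞) := by
        intro b
        by_cases hb : Block st ht b
        · simp only [if_pos hb]
          rw [← mul_add, ← Nat.cast_add]
          have h5 := min_le_right b.length M
          have h6 : min b.length M + (B + M - min b.length M) = B + M := by omega
          rw [h6]
        · simp [hb]
      simp_rw [h4]
      rw [ENNReal.tsum_mul_right]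
      calc blockMass st ht Q * ((B + M : ℕ) : ℝ≥0∞) ≤ 1 * ((B + M : ℕ) : ℝ≥0∞) := by
            gcongr
        _ = _ := one_mul _
    calc e * upY st ht Q B ≤ e * (1 + ∑' b, if Block st ht b ∧ b.length ≤ B then
          Q (cyl b) * upY st ht Q (B - b.length) else 0) := by gcongr
      _ = e + e * (∑' b, if Block st ht b ∧ b.length ≤ B then
          Q (cyl b) * upY st ht Q (B - b.length) else 0) := by rw [mul_add, mul_one]
      _ ≤ e + ∑' b, if Block st ht b then
          Q (cyl b) * ((B + M - min b.length M : ℕ) : ℝ≥0∞) else 0 := by gcongr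
      _ ≤ _ := h3

lemma sum_ite_cast_le (S : Finset ℕ) (h : ℤ) (w : ℝ≥0∞) :
    ∑ T ∈ S, (if h = (T : ℤ) then w else 0) ≤ w := by
  by_cases hh : 0 ≤ h
  · have : ∀ T : ℕ, (h = (T : ℤ)) ↔ T = h.toNat := by
      intro T
      constructor
      · intro h1; subst h1; simp
      · intro h1; subst h1; simp [Int.toNat_of_nonneg hh]
    simp_rw [this]
    rw [Finset.sum_ite_eq']
    split_ifs
    · exact le_rfl
    · exact zero_le
  · have : ∀ T : ℕ, ¬ (h = (T : ℤ)) := by
      intro T h1
      apply hh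
      rw [h1]
      positivity
    simp [this]

lemma upY_ge [MeasurableSingletonClass U] [Countable U] [IsProbabilityMeasure Q]
    (hstep : ∀ e, ht (st e) ≤ 1) {k : ℕ} (hk : 0 < k) (T1 : ℕ) :
    (T1 : ℝ≥0∞) * Q (Dk st ht k) ≤ upY st ht Q (k * T1) := by
  have h1 : ∑ T ∈ Finset.Icc 1 T1, (∑' g, if Up st ht g ∧ ht (disp st g) = (T : ℕ) ∧
      g.length ≤ k * T1 then Q (cyl g) else 0) ≤ upY st ht Q (k * T1) := by
    rw [← Summable.tsum_finsetSum (fun _ _ => ENNReal.summable)]
    refine ENNReal.tsum_le_tsum fun g => ?_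
    by_cases hg : Up st ht g ∧ g.length ≤ k * T1
    · have h2 : ∀ T : ℕ, (if Up st ht g ∧ ht (disp st g) = (T : ℤ) ∧ g.length ≤ k * T1 then
          Q (cyl g) else 0) = if ht (disp st g) = (T : ℤ) then Q (cyl g) else 0 := by
        intro T
        by_cases hT : ht (disp st g) = (T : ℤ)
        · rw [if_pos ⟨hg.1, hT, hg.2⟩, if_pos hT]
        · rw [if_neg (fun h => hT h.2.1), if_neg hT]
      simp_rw [h2]
      rw [if_pos hg, mul_one]
      exact sum_ite_cast_le _ _ _
    · have h2 : ∀ T : ℕ, ¬ (Up st ht g ∧ ht (disp st g) = (T : ℤ) ∧ g.length ≤ k * T1) :=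
        fun T h => hg ⟨h.1, h.2.2⟩
      simp [h2]
  refine le_trans ?_ h1
  have h3 : ∀ T ∈ Finset.Icc 1 T1, Q (Dk st ht k) ≤ ∑' g, if Up st ht g ∧ ht (disp st g) = (T : ℕ) ∧
      g.length ≤ k * T1 then Q (cyl g) else 0 := by
    intro T hT
    rw [Finset.mem_Icc] at hT
    exact Dk_le_up_mass hstep hk hT.1 (Nat.mul_le_mul_left k hT.2)
  calc (T1 : ℝ≥0∞) * Q (Dk st ht k) = ∑ _T ∈ Finset.Icc 1 T1, Q (Dk st ht k) := by
        simp
    _ ≤ _ := Finset.sum_le_sum h3

/-- positive speed implies that the mean block length is finite -/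
lemma blockMean_ne_top [MeasurableSingletonClass U] [Countable U] [IsProbabilityMeasure Q]
    (m : Model st Q) (hstep : ∀ e, ht (st e) ≤ 1) (hmass : blockMass st ht Q ≤ 1) {k : ℕ}
    (hk : 0 < k) (hc : 0 < Q (Dk st ht k)) : blockMean st ht Q ≠ ∞ := by
  set c := Q (Dk st ht k) with hcdef
  have hctop : c ≠ ∞ := measure_ne_top _ _
  have hQ : Q (cyl []) ≤ 1 := prob_le_one
  have htrunc : ∀ M, blockTrunc st ht Q M * c ≤ ((k + 1 : ℕ) : ℝ≥0∞) := by
    intro M
    have h1 := trunc_mul_upY_le (ht := ht) m hQ hmass M (k * (M + 1))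
    have h2 := upY_ge (ht := ht) (Q := Q) hstep hk (M + 1)
    have h3 : blockTrunc st ht Q M * (((M + 1 : ℕ) : ℝ≥0∞) * c) ≤ ((k * (M + 1) + M : ℕ) : ℝ≥0∞) :=
      le_trans (mul_le_mul_right h2 _) h1
    have h4 : ((k * (M + 1) + M : ℕ) : ℝ≥0∞) ≤ ((M + 1 : ℕ) : ℝ≥0∞) * ((k + 1 : ℕ) : ℝ≥0∞) := by
      rw [← Nat.cast_mul]
      apply Nat.cast_le.2
      nlinarith
    have h5 : ((M + 1 : ℕ) : ℝ≥0∞) * (blockTrunc st ht Q M * c) ≤
        ((M + 1 : ℕ) : ℝ≥0∞) * ((k + 1 : ℕ) : ℝ≥0∞) := by
      calc _ = blockTrunc st ht Q M * (((M + 1 : ℕ) : ℝ≥0∞) * c) := by ring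
        _ ≤ _ := h3.trans h4
    have h6 : ((M + 1 : ℕ) : ℝ≥0∞) ≠ 0 := by
      exact_mod_cast Nat.succ_ne_zero M
    have h7 : ((M + 1 : ℕ) : ℝ≥0∞) ≠ ∞ := ENNReal.natCast_ne_top _
    exact (ENNReal.mul_le_mul_iff_right h6 h7).1 h5
  have hbound : blockMean st ht Q ≤ ((k + 1 : ℕ) : ℝ≥0∞) / c := by
    unfold blockMean
    rw [ENNReal.tsum_eq_iSup_sum]
    refine iSup_le fun S => ?_
    let M := S.sup List.length
    have h1 : ∑ b ∈ S, (if Block st ht b then Q (cyl b) * (b.length : ℝ≥0∞) else 0) ≤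
        blockTrunc st ht Q M := by
      refine le_trans (le_of_eq ?_) (ENNReal.sum_le_tsum S)
      refine Finset.sum_congr rfl fun b hb => ?_
      have : b.length ≤ M := Finset.le_sup (f := List.length) hb
      rw [min_eq_left this]
    rw [ENNReal.le_div_iff_mul_le (Or.inl hc.ne') (Or.inl hctop)]
    exact (mul_le_mul_left h1 c).trans (htrunc M)
  refine ne_top_of_le_ne_top ?_ hbound
  exact ENNReal.div_ne_top (ENNReal.natCast_ne_top _) hc.ne'

end Vale.Agent.Lib.P147
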