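import Vale.Agent.Lib.P147.Moment

/-! # P147: the bridge between the two half-space events and the final contradiction -/

open MeasureTheory Set Filter Topology
open scoped ENNReal

noncomputable section

namespace Vale.Agent.Lib.P147

open scoped Classical

variable {U V : Type*} [AddCommGroup V] {st : U → V} {ht : V →+ ℤ}

/-- the transverse part of the bridge -/
def tau (E0 E1 E2 : U) (a b c : ℕ) : List U :=
  List.replicate a E0 ++ List.replicate b E1 ++ List.replicate c E2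

/-- the bridge from the end of the first list to the start of the second: one step up,
transverse steps, one step down -/
def route (Eu Ed E0 E1 E2 : U) (a b c : ℕ) : List U :=
  [Eu] ++ (tau E0 E1 E2 a b c ++ [Ed])

lemma disp_replicate (st : U → V) (n : ℕ) (e : U) : disp st (List.replicate n e) = n • st e := by
  induction n with
  | zero => simp
  | succ n ih => rw [List.replicate_succ, disp_cons, ih, succ_nsmul]; abel

lemma disp_tau (st : U → V) (E0 E1 E2 : U) (a b c : ℕ) :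
    disp st (tau E0 E1 E2 a b c) = tr st E0 E1 E2 a b c := by
  simp [tau, tr, disp_replicate, add_assoc]

lemma length_tau (E0 E1 E2 : U) (a b c : ℕ) : (tau E0 E1 E2 a b c).length = a + b + c := by
  simp [tau, add_assoc]

lemma length_route (Eu Ed E0 E1 E2 : U) (a b c : ℕ) :
    (route Eu Ed E0 E1 E2 a b c).length = a + b + c + 2 := by
  simp [route, length_tau]

section axes

variable {Eu Ed E0 E1 E2 : U}

lemma disp_route (ax : Axes st ht Eu Ed E0 E1 E2) (a b c : ℕ) :
    disp st (route Eu Ed E0 E1 E2 a b c) = tr st E0 E1 E2 a b c := by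
  simp [route, disp_tau, ax.hd]

lemma tau_transverse (ax : Axes st ht Eu Ed E0 E1 E2) (a b c : ℕ) :
    ∀ e ∈ tau E0 E1 E2 a b c, ht (st e) = 0 := by
  intro e he
  simp only [tau, List.mem_append, List.mem_replicate] at he
  rcases he with ((⟨_, rfl⟩ | ⟨_, rfl⟩) | ⟨_, rfl⟩)
  · exact ax.h0
  · exact ax.h1
  · exact ax.h2

lemma route_level (ax : Axes st ht Eu Ed E0 E1 E2) (a b c t : ℕ) :
    0 ≤ ht (pos st (route Eu Ed E0 E1 E2 a b c) t) ∧
      (0 < t → t < (route Eu Ed E0 E1 E2 a b c).length →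
        ht (pos st (route Eu Ed E0 E1 E2 a b c) t) = 1) := by
  have htau := tau_transverse ax a b c
  have hEu := ax.hu
  have hEd : ht (st Ed) = -1 := by rw [ax.hd, map_neg, hEu]
  have hlen := length_route Eu Ed E0 E1 E2 a b c
  have hlt := length_tau E0 E1 E2 a b c
  cases t with
  | zero => simp
  | succ t =>
    have h1 : pos st (route Eu Ed E0 E1 E2 a b c) (t + 1) =
        st Eu + pos st (tau E0 E1 E2 a b c ++ [Ed]) t := by
      have := pos_append_add st [Eu] (tau E0 E1 E2 a b c ++ [Ed]) t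
      simp only [List.length_singleton, disp_cons, disp_nil, add_zero] at this
      rw [add_comm t 1]
      exact this
    by_cases ht1 : t ≤ (tau E0 E1 E2 a b c).length
    · have h2 : ht (pos st (tau E0 E1 E2 a b c ++ [Ed]) t) = 0 := by
        rw [pos_append_of_le st _ ht1]
        exact ht_disp_of_transverse fun e he => htau e (List.mem_of_mem_take he)
      rw [h1, map_add, hEu, h2]
      simp
    · have h2 : pos st (tau E0 E1 E2 a b c ++ [Ed]) t = disp st (tau E0 E1 E2 a b c ++ [Ed]) :=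
        pos_of_length_le st (by simp; omega)
      have h3 : ht (disp st (tau E0 E1 E2 a b c ++ [Ed])) = -1 := by
        rw [disp_append, map_add, ht_disp_of_transverse htau]
        simp [hEd]
      rw [h1, map_add, hEu, h2, h3]
      refine ⟨by norm_num, fun _ hlt' => ?_⟩
      exfalso
      rw [hlen] at hlt'
      omega

variable {ht₂ : V →+ ℤ} [MeasurableSpace U] {Q : Measure (ℕ → U)}

/-- weight of a good concatenation -/
lemma weight_good (m : Model st Q) (ax : Axes st ht Eu Ed E0 E1 E2) (hh : ∀ x, ht₂ x = - ht x)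
    {g f : List U} (hg : Up st ht g) (hf : Up st ht₂ f) {a b c : ℕ}
    (hgood : Good st g f (tr st E0 E1 E2 a b c)) :
    Q (cyl (g ++ (route Eu Ed E0 E1 E2 a b c ++ f))) =
      Q (cyl g) * (Q (cyl (route Eu Ed E0 E1 E2 a b c)) * Q (cyl f)) := by
  set r := route Eu Ed E0 E1 E2 a b c with hr
  have hdr : disp st r = tr st E0 E1 E2 a b c := disp_route ax a b c
  have hlev : ∀ t, 0 ≤ ht (pos st r t) ∧ (0 < t → t < r.length → ht (pos st r t) = 1) :=
    route_level ax a b c
  rw [m.w1 g (r ++ f), m.w1 r f]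
  · -- route against `f`
    intro x hx y hy heq
    rw [hdr] at heq
    by_cases hx0 : x = 0
    · subst hx0
      rw [pos_zero] at heq
      exact (hgood y hy).1 heq.symm
    · have h1 := (hlev x).2 (by omega) hx
      have h2 := hf.nonneg y
      simp only [lvl] at h2
      rw [hh] at h2
      rw [heq, map_add, ht_tr ax, zero_add] at h1
      omega
  · -- `g` against route and `f`
    intro x hx y hy heq
    by_cases hyr : y ≤ r.length
    · rw [pos_append_of_le st f hyr] at heq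
      have h1 := hg.lt_end hx
      have h2 := (hlev y).1
      simp only [lvl] at h1
      rw [heq, map_add] at h1
      omega
    · obtain ⟨t, rfl⟩ : ∃ t, y = r.length + t := ⟨y - r.length, by omega⟩
      rw [pos_append_add, hdr] at heq
      have ht' : t < f.length := by
        rw [List.length_append] at hy
        omega
      apply (hgood t ht').2 x hx
      rw [heq]
      abel

/-- exits of the concatenation lie strictly above its end -/
lemma exits_above (ax : Axes st ht Eu Ed E0 E1 E2) (hh : ∀ x, ht₂ x = - ht x)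
    {g f : List U} (hg : Up st ht g) (hf : Up st ht₂ f) {T : ℤ} (hgT : ht (disp st g) = T)
    (hfT : ht₂ (disp st f) = T + 1) (a b c : ℕ) :
    ∀ x < (g ++ (route Eu Ed E0 E1 E2 a b c ++ f)).length,
      ht₂ (pos st (g ++ (route Eu Ed E0 E1 E2 a b c ++ f)) x) <
        ht₂ (disp st (g ++ (route Eu Ed E0 E1 E2 a b c ++ f))) := by
  set r := route Eu Ed E0 E1 E2 a b c with hr
  have hdr : disp st r = tr st E0 E1 E2 a b c := disp_route ax a b c
  have hlev : ∀ t, 0 ≤ ht (pos st r t) ∧ (0 < t → t < r.length → ht (pos st r t) = 1) :=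
    route_level ax a b c
  have hend : ht₂ (disp st (g ++ (r ++ f))) = 1 := by
    simp only [disp_append, map_add]
    rw [hfT, hh (disp st g), hh (disp st r), hgT, hdr, ht_tr ax]
    ring
  have hTpos : 0 ≤ T := by rw [← hgT]; exact hg.disp_nonneg
  intro x hx
  rw [hend, hh]
  by_cases hx1 : x ≤ g.length
  · rw [pos_append_of_le st _ hx1]
    have := hg.nonneg x
    simp only [lvl] at this
    omega
  · obtain ⟨y, rfl⟩ : ∃ y, x = g.length + y := ⟨x - g.length, by omega⟩
    rw [pos_append_add, map_add, hgT]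
    by_cases hy : y ≤ r.length
    · rw [pos_append_of_le st _ hy]
      have := (hlev y).1
      omega
    · obtain ⟨t, rfl⟩ : ∃ t, y = r.length + t := ⟨y - r.length, by omega⟩
      rw [pos_append_add, map_add, hdr, ht_tr ax, zero_add]
      have ht' : t < f.length := by
        simp only [List.length_append] at hx
        omega
      have h1 := hf.lt_end ht'
      simp only [lvl] at h1
      rw [hfT, hh] at h1
      omega

variable (st ht) in
/-- paths reaching level `T` and then tending to minus infinity -/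
def BT (T : ℕ) : Set (ℕ → U) :=
  {s | (∃ n, (T : ℤ) ≤ lvS st ht s n) ∧ ∀ M : ℕ, ∃ N, ∀ n ≥ N, lvS st ht s n ≤ -(M : ℤ)}

omit [MeasurableSpace U] in
lemma BT_antitone : Antitone (BT st ht : ℕ → Set (ℕ → U)) := by
  intro T T' hT s hs
  obtain ⟨⟨n, hn⟩, h2⟩ := hs
  refine ⟨⟨n, ?_⟩, h2⟩
  have : (T : ℤ) ≤ T' := by exact_mod_cast hT
  omega

omit [MeasurableSpace U] in
lemma iInter_BT_empty : (⋂ T, BT st ht T : Set (ℕ → U)) = ∅ := by
  ext s
  simp only [mem_iInter, mem_empty_iff_false, iff_false]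
  intro hs
  obtain ⟨N, hN⟩ := (hs 0).2 0
  obtain ⟨n0, _, hmax⟩ := Finset.exists_max_image (Finset.range (N + 1)) (lvS st ht s) ⟨0, by simp⟩
  obtain ⟨n, hn⟩ := (hs ((lvS st ht s n0).toNat + 1)).1
  have h1 : lvS st ht s n0 ≤ ((lvS st ht s n0).toNat : ℤ) := Int.self_le_toNat _
  push_cast at hn
  by_cases hnN : n ≤ N
  · have := hmax n (by simp; omega)
    omega
  · have := hN n (by omega)
    simp only [Nat.cast_zero, neg_zero] at this
    have h2 : (0 : ℤ) ≤ ((lvS st ht s n0).toNat : ℤ) := by positivity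
    omega

lemma measurableSet_BT [MeasurableSingletonClass U] [Countable U] (T : ℕ) :
    MeasurableSet (BT st ht T : Set (ℕ → U)) := by
  have h1 : (BT st ht T : Set (ℕ → U)) = (⋃ n, {s | (T : ℤ) ≤ ht (X st s n)}) ∩
      ⋂ M : ℕ, ⋃ N, ⋂ n, ⋂ _ : n ≥ N, {s | ht (X st s n) ≤ -(M : ℤ)} := by
    ext s
    simp only [BT, lvS, mem_setOf_eq, mem_inter_iff, mem_iUnion, mem_iInter]
  rw [h1]
  refine MeasurableSet.inter (MeasurableSet.iUnion fun n => ?_) (MeasurableSet.iInter fun M =>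
    MeasurableSet.iUnion fun N => MeasurableSet.iInter fun n => MeasurableSet.iInter fun _ => ?_)
  · exact measurableSet_X st n (fun x => (T : ℤ) ≤ ht x)
  · exact measurableSet_X st n (fun x => ht x ≤ -(M : ℤ))

/-- the bridge event is contained in `BT` -/
lemma event_subset (ax : Axes st ht Eu Ed E0 E1 E2) (hh : ∀ x, ht₂ x = - ht x)
    {g f : List U} (hg : Up st ht g) {T : ℕ} (hgT : ht (disp st g) = T)
    (hfT : ht₂ (disp st f) = T + 1) (a b c : ℕ) {k : ℕ} (hk : 0 < k) :
    cyl (g ++ (route Eu Ed E0 E1 E2 a b c ++ f)) ∩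
      shift (g ++ (route Eu Ed E0 E1 E2 a b c ++ f)).length ⁻¹' Dk st ht₂ k ⊆ BT st ht T := by
  set r := route Eu Ed E0 E1 E2 a b c with hr
  have hdr : disp st r = tr st E0 E1 E2 a b c := disp_route ax a b c
  rintro s ⟨hs1, hs2⟩
  set Γ := g ++ (r ++ f) with hΓ
  have hend : ht (disp st Γ) = -1 := by
    have h1 : ht (disp st f) = - ((T : ℤ) + 1) := by
      have := hfT
      rw [hh] at this
      omega
    simp only [hΓ, disp_append, map_add]
    rw [hgT, hdr, ht_tr ax, h1]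
    ring
  refine ⟨⟨g.length, ?_⟩, fun M => ?_⟩
  · have h1 := (mem_cyl_append.1 hs1).1
    simp only [lvS]
    rw [X_of_mem_cyl st h1, hgT]
  · refine ⟨Γ.length + k * (M + 1), fun n hn => ?_⟩
    obtain ⟨t, rfl⟩ : ∃ t, n = Γ.length + t := ⟨n - Γ.length, by omega⟩
    have htk : k * (M + 1) ≤ t := by omega
    have hkle : k ≤ t := (Nat.le_mul_of_pos_right k (Nat.succ_pos M)).trans htk
    have h2 := (hs2 t).2 hkle
    have h3 : lvS st ht s (Γ.length + t) = -1 - lvS st ht₂ (shift Γ.length s) t := by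
      rw [lvS_add]
      have h4 : lvS st ht s Γ.length = -1 := by
        simp only [lvS]
        rw [X_of_mem_cyl st hs1, hend]
      have h5 : lvS st ht₂ (shift Γ.length s) t = - lvS st ht (shift Γ.length s) t := by
        simp only [lvS]
        rw [hh]
      rw [h4, h5]
      ring
    rw [h3]
    have h6 : (0 : ℤ) < k := by exact_mod_cast hk
    have h7 : ((k * (M + 1) : ℕ) : ℤ) ≤ t := by exact_mod_cast htk
    push_cast at h7
    have h8 : (M : ℤ) + 1 ≤ lvS st ht₂ (shift Γ.length s) t :=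
      le_of_mul_le_mul_left (h7.trans h2) h6
    omega

/-- distinct pairs give disjoint bridge events -/
lemma event_disjoint {g g' f f' r : List U} (hg : Up st ht g) (hg' : Up st ht g')
    (hf : Up st ht₂ f) (hf' : Up st ht₂ f') (hgT : ht (disp st g) = ht (disp st g'))
    (hfT : ht₂ (disp st f) = ht₂ (disp st f')) (hne : (g, f) ≠ (g', f')) :
    Disjoint (cyl (g ++ (r ++ f))) (cyl (g' ++ (r ++ f'))) := by
  rw [Set.disjoint_left]
  intro s hs hs'
  have h1 := mem_cyl_append.1 hs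
  have h2 := mem_cyl_append.1 hs'
  have hgg := up_eq_of_mem_cyl hg hg' hgT h1.1 h2.1
  subst hgg
  have h3 := mem_cyl_append.1 h1.2
  have h4 := mem_cyl_append.1 h2.2
  have hff := up_eq_of_mem_cyl hf hf' hfT h3.2 h4.2
  subst hff
  exact hne rfl

variable [MeasurableSingletonClass U] [Countable U] [IsProbabilityMeasure Q]

variable (st ht ht₂ Q) in
/-- the mass of intersection-free pairs at the offset `o` -/
def goodSum (T T' : ℤ) (o : V) : ℝ≥0∞ :=
  ∑' g, ∑' f, if (Up st ht g ∧ ht (disp st g) = T) ∧ (Up st ht₂ f ∧ ht₂ (disp st f) = T') ∧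
    Good st g f o then Q (cyl g) * Q (cyl f) else 0

omit [MeasurableSingletonClass U] [Countable U] [IsProbabilityMeasure Q] in
lemma good_add_bad (T T' : ℤ) (o : V) :
    goodSum st ht ht₂ Q T T' o + badSum st Q ht ht₂ T T' o =
      (∑' g, if Up st ht g ∧ ht (disp st g) = T then Q (cyl g) else 0) *
        ∑' f, if Up st ht₂ f ∧ ht₂ (disp st f) = T' then Q (cyl f) else 0 := by
  unfold goodSum badSum
  rw [← ENNReal.tsum_add, ← ENNReal.tsum_mul_right]
  refine tsum_congr fun g => ?_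
  rw [← ENNReal.tsum_add, ← ENNReal.tsum_mul_left]
  refine tsum_congr fun f => ?_
  by_cases hg : Up st ht g ∧ ht (disp st g) = T
  · by_cases hf : Up st ht₂ f ∧ ht₂ (disp st f) = T'
    · by_cases hgood : Good st g f o <;> simp [hg, hf, hgood]
    · simp [hf]
  · simp [hg]

/-- lower bound for the probability of `BT` by the good mass -/
lemma BT_ge_goodSum (m : Model st Q) (ax : Axes st ht Eu Ed E0 E1 E2) (hh : ∀ x, ht₂ x = - ht x)
    {T : ℕ} {a b c k : ℕ} (hk : 0 < k) {K : ℝ≥0∞}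
    (hK : K ≤ Q (cyl (route Eu Ed E0 E1 E2 a b c))) :
    K * Q (Dk st ht₂ k) * goodSum st ht ht₂ Q T (T + 1) (tr st E0 E1 E2 a b c) ≤ Q (BT st ht T) := by
  set r := route Eu Ed E0 E1 E2 a b c with hr
  have hdr : disp st r = tr st E0 E1 E2 a b c := disp_route ax a b c
  let P : List U × List U → Prop := fun q =>
    (Up st ht q.1 ∧ ht (disp st q.1) = T) ∧ (Up st ht₂ q.2 ∧ ht₂ (disp st q.2) = T + 1) ∧
      Good st q.1 q.2 (tr st E0 E1 E2 a b c)
  have h1 := tsum_measure_le (Q := Q) P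
    (fun q => cyl (q.1 ++ (r ++ q.2)) ∩ shift (q.1 ++ (r ++ q.2)).length ⁻¹' Dk st ht₂ k)
    (BT st ht T)
    (fun q _ => measurable_cyl_inter _ (measurableSet_Dk k))
    (fun q q' hq hq' hne => by
      have hd := event_disjoint (r := r) hq.1.1 hq'.1.1 hq.2.1.1 hq'.2.1.1
        (hq.1.2.trans hq'.1.2.symm) (hq.2.1.2.trans hq'.2.1.2.symm) hne
      exact hd.mono Set.inter_subset_left Set.inter_subset_left)
    (fun q hq => event_subset ax hh hq.1.1 hq.1.2 hq.2.1.2 a b c hk)
  refine le_trans ?_ h1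
  unfold goodSum
  rw [← ENNReal.tsum_mul_left, ENNReal.tsum_prod']
  refine ENNReal.tsum_le_tsum fun g => ?_
  rw [← ENNReal.tsum_mul_left]
  refine ENNReal.tsum_le_tsum fun f => ?_
  by_cases hq : P (g, f)
  · have hq' := hq
    simp only [P] at hq'
    rw [if_pos hq', if_pos hq]
    simp only
    rw [cyl_inter_Dk_eq m (exits_above ax hh hq'.1.1 hq'.2.1.1 hq'.1.2 hq'.2.1.2 a b c) k,
      weight_good m ax hh hq'.1.1 hq'.2.1.1 hq'.2.2]
    calc K * Q (Dk st ht₂ k) * (Q (cyl g) * Q (cyl f))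
        ≤ Q (cyl r) * Q (Dk st ht₂ k) * (Q (cyl g) * Q (cyl f)) := by
          refine mul_le_mul_left (mul_le_mul_left hK _) _
      _ = _ := by ring
  · have hq' := hq
    simp only [P] at hq'
    rw [if_neg hq', if_neg hq, mul_zero]

end axes

/-- the core theorem: opposite positive speeds are impossible -/
theorem core_no_opposite_speeds {Eu Ed E0 E1 E2 : U} {ht₂ : V →+ ℤ} [MeasurableSpace U]
    [MeasurableSingletonClass U] [Countable U] {Q : Measure (ℕ → U)} [IsProbabilityMeasure Q]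
    (m : Model st Q) (ax : Axes st ht Eu Ed E0 E1 E2)
    (hh : ∀ x, ht₂ x = - ht x) (hstep : ∀ e, ht (st e) ≤ 1) (hstep₂ : ∀ e, ht₂ (st e) ≤ 1)
    (hA : 0 < Q {s : ℕ → U | ∃ δ : ℝ, 0 < δ ∧ ∃ N : ℕ, ∀ n ≥ N, δ * n ≤ (lvS st ht s n : ℝ)})
    (hB : 0 < Q {s : ℕ → U | ∃ δ : ℝ, 0 < δ ∧ ∃ N : ℕ, ∀ n ≥ N, δ * n ≤ (lvS st ht₂ s n : ℝ)}) :
    False := by
  obtain ⟨k₁, hk₁, hc₁⟩ := exists_Dk_pos (ht := ht) m hA
  obtain ⟨k₂, hk₂, hc₂⟩ := exists_Dk_pos (ht := ht₂) m hB
  have mass₁ : blockMass st ht Q ≤ 1 := block_mass_le_one m (measure_Dinf_pos_of_Dk hc₁)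
  have mass₂ : blockMass st ht₂ Q ≤ 1 := block_mass_le_one m (measure_Dinf_pos_of_Dk hc₂)
  have mean₁ := blockMean_ne_top m hstep mass₁ hk₁ hc₁
  have mean₂ := blockMean_ne_top m hstep₂ mass₂ hk₂ hc₂
  obtain ⟨ε0, -, hε0⟩ := Finset.exists_min_image (Finset.univ : Finset (Bool × Bool × Bool))
    (fun ε => Q (cyl (atom Eu E0 E1 E2 ε))) ⟨(true, true, true), Finset.mem_univ _⟩
  set a₀ := Q (cyl (atom Eu E0 E1 E2 ε0)) with ha₀
  have ha0 : a₀ ≠ 0 := m.w3 _
  have hatop : a₀ ≠ ∞ := measure_ne_top _ _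
  have hw : ∀ ε, a₀ ≤ Q (cyl (atom Eu E0 E1 E2 ε)) := fun ε => hε0 ε (Finset.mem_univ ε)
  set c₁ := Q (Dk st ht k₁) with hc₁def
  set c₂ := Q (Dk st ht₂ k₂) with hc₂def
  have hc₁top : c₁ ≠ ∞ := measure_ne_top _ _
  have hc₂top : c₂ ≠ ∞ := measure_ne_top _ _
  set c := c₁ * c₂ / 2 with hc
  have hc0 : c ≠ 0 := by
    rw [hc]
    exact (ENNReal.div_pos (mul_ne_zero hc₁.ne' hc₂.ne') (by norm_num)).ne'
  have hctop : c ≠ ∞ :=
    ENNReal.div_ne_top (ENNReal.mul_ne_top hc₁top hc₂top) (by norm_num)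
  obtain ⟨R, hR⟩ := exists_offset m ax hh mass₁ mean₁ mean₂ ha0 hatop hw hc0
  obtain ⟨p₀, hp₀, -⟩ := hR 0 0
  obtain ⟨pm, -, hpm⟩ := Finset.exists_min_image (box R)
    (fun p => Q (cyl (route Eu Ed E0 E1 E2 p.1 p.2.1 p.2.2))) ⟨p₀, hp₀⟩
  set K := Q (cyl (route Eu Ed E0 E1 E2 pm.1 pm.2.1 pm.2.2)) with hK
  have hK0 : K ≠ 0 := m.w3 _
  set c₀ := K * c₂ * c with hc₀
  have hc₀0 : c₀ ≠ 0 := mul_ne_zero (mul_ne_zero hK0 hc₂.ne') hc0
  have hlower : ∀ T : ℕ, 1 ≤ T → c₀ ≤ Q (BT st ht T) := by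
    intro T hT
    obtain ⟨⟨a, b, d⟩, hp, hbad⟩ := hR T (T + 1)
    have hu : c₁ ≤ ∑' g, if Up st ht g ∧ ht (disp st g) = T then Q (cyl g) else 0 := by
      refine (Dk_le_up_mass hstep hk₁ hT le_rfl).trans (ENNReal.tsum_le_tsum fun g => ?_)
      by_cases h1 : Up st ht g ∧ ht (disp st g) = T ∧ g.length ≤ k₁ * T
      · rw [if_pos h1, if_pos ⟨h1.1, h1.2.1⟩]
      · rw [if_neg h1]; exact zero_le
    have hu' : c₂ ≤ ∑' f, if Up st ht₂ f ∧ ht₂ (disp st f) = (T : ℤ) + 1 then Q (cyl f) else 0 := by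
      refine (Dk_le_up_mass (T := T + 1) hstep₂ hk₂ (by omega) le_rfl).trans
        (ENNReal.tsum_le_tsum fun f => ?_)
      by_cases h1 : Up st ht₂ f ∧ ht₂ (disp st f) = ((T + 1 : ℕ) : ℤ) ∧ f.length ≤ k₂ * (T + 1)
      · have h2 : ht₂ (disp st f) = (T : ℤ) + 1 := by rw [h1.2.1]; push_cast; ring
        rw [if_pos h1, if_pos ⟨h1.1, h2⟩]
      · rw [if_neg h1]; exact zero_le
    have hgb := good_add_bad (st := st) (Q := Q) (ht := ht) (ht₂ := ht₂) T ((T : ℤ) + 1)
      (tr st E0 E1 E2 a b d)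
    have hgood : c ≤ goodSum st ht ht₂ Q T ((T : ℤ) + 1) (tr st E0 E1 E2 a b d) := by
      have h1 : c + c ≤ goodSum st ht ht₂ Q T ((T : ℤ) + 1) (tr st E0 E1 E2 a b d) + c := by
        calc c + c = c₁ * c₂ := ENNReal.add_halves _
          _ ≤ _ := mul_le_mul' hu hu'
          _ = _ := hgb.symm
          _ ≤ _ := add_le_add le_rfl hbad
      exact (ENNReal.add_le_add_iff_right hctop).1 h1
    have hKr : K ≤ Q (cyl (route Eu Ed E0 E1 E2 a b d)) := hpm (a, b, d) hp
    calc c₀ = K * c₂ * c := rfl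
      _ ≤ K * c₂ * goodSum st ht ht₂ Q T ((T : ℤ) + 1) (tr st E0 E1 E2 a b d) :=
          mul_le_mul_right hgood _
      _ ≤ _ := BT_ge_goodSum m ax hh hk₂ hKr
  have hlim : Tendsto (Q ∘ (BT st ht : ℕ → Set (ℕ → U))) atTop (𝓝 (Q (⋂ T, BT st ht T))) :=
    tendsto_measure_iInter_atTop (fun T => (measurableSet_BT T).nullMeasurableSet) BT_antitone
      ⟨0, measure_ne_top _ _⟩
  rw [iInter_BT_empty, measure_empty] at hlim
  have hev := hlim.eventually_lt_const (pos_iff_ne_zero.2 hc₀0)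
  obtain ⟨T, hT2, hT1⟩ := (hev.and (eventually_ge_atTop 1)).exists
  exact absurd (hlower T hT1) (not_le.2 hT2)

end Vale.Agent.Lib.P147
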