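import Mathlib

/-! # P147: random walk in iid random environment on the lattice, statement-level definitions -/

open MeasureTheory

namespace Vale.Agent.Lib.P147

/-- the `2 d` unit steps: a coordinate and a sign (`true` for `+`, `false` for `-`) -/
abbrev Step (d : ℕ) := Fin d × Bool

/-- lattice sites -/
abbrev Site (d : ℕ) := Fin d → ℤ

/-- the unit vector `± e_i` of a step -/
def stepVec {d : ℕ} (e : Step d) : Site d :=
  fun j => if j = e.1 then (if e.2 then 1 else -1) else 0

/-- an environment assigns a transition vector to each site -/
abbrev Env (d : ℕ) := Site d → Step d → ℝ

/-- the quenched probability that the walk started at `x` in the environment `ω` follows the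
step list `l` during its first `l.length` steps -/
noncomputable def quenched {d : ℕ} (ω : Env d) : Site d → List (Step d) → ℝ
  | _, [] => 1
  | x, e :: l => ω x e * quenched ω (x + stepVec e) l

/-- the position after `n` steps of a walk from the origin with step sequence `s` -/
def walk {d : ℕ} (s : ℕ → Step d) (n : ℕ) : Site d := ∑ r ∈ Finset.range n, stepVec (s r)

/-- `Q` is the annealed law from the origin for iid rows of law `μ`, described through the step
sequence: the probability of starting with the list `l` is the average over the product
environment of the quenched probability of `l` -/
def IsAnnealedLaw {d : ℕ} (μ : Measure (Step d → ℝ)) (Q : Measure (ℕ → Step d)) : Prop :=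
  ∀ l : List (Step d), Q {s | (List.range l.length).map s = l} =
    ENNReal.ofReal (∫ ω : Env d, quenched ω 0 l ∂(Measure.infinitePi fun _ : Site d => μ))

end Vale.Agent.Lib.P147
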