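import Vale.Agent.Lib.P147.Defs
import Vale.Agent.Lib.P147.Core

/-! # P147: the iid environment yields the weight hypotheses of the core argument -/

open MeasureTheory ProbabilityTheory Set
open scoped ENNReal

noncomputable section

namespace Vale.Agent.Lib.P147

variable {d : ℕ}

lemma quenched_nil (ω : Env d) (x : Site d) : quenched ω x [] = 1 := by
  simp [quenched]

lemma quenched_cons (ω : Env d) (x : Site d) (e : Step d) (l : List (Step d)) :
    quenched ω x (e :: l) = ω x e * quenched ω (x + stepVec e) l := by
  simp [quenched]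

lemma quenched_append (ω : Env d) (x : Site d) (g f : List (Step d)) :
    quenched ω x (g ++ f) = quenched ω x g * quenched ω (x + disp stepVec g) f := by
  induction g generalizing x with
  | nil => simp [quenched_nil]
  | cons e g ih =>
    rw [List.cons_append, quenched_cons, quenched_cons, ih, disp_cons, mul_assoc, add_assoc]

lemma measurable_quenched (x : Site d) (l : List (Step d)) :
    Measurable fun ω : Env d => quenched ω x l := by
  induction l generalizing x with
  | nil => simp [quenched_nil]
  | cons e l ih =>
    simp only [quenched_cons]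
    have h1 : Measurable fun ω : Env d => ω x e :=
      (measurable_pi_apply e).comp (measurable_pi_apply x)
    exact h1.mul (ih _)

/-- `quenched` only depends on the environment at the exits of the list -/
lemma quenched_congr {ω ω' : Env d} (x : Site d) (l : List (Step d))
    (h : ∀ a < l.length, ω (x + pos stepVec l a) = ω' (x + pos stepVec l a)) :
    quenched ω x l = quenched ω' x l := by
  induction l generalizing x with
  | nil => simp [quenched_nil]
  | cons e l ih =>
    rw [quenched_cons, quenched_cons]
    have h0 := h 0 (by simp)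
    simp only [pos_zero, add_zero] at h0
    rw [h0, ih]
    intro a ha
    have h1 := h (a + 1) (by simpa using ha)
    have h2 : pos stepVec (e :: l) (a + 1) = stepVec e + pos stepVec l a := by
      simp [pos, List.take_succ_cons]
    rw [h2, ← add_assoc] at h1
    exact h1

lemma quenched_shift (ω : Env d) (x z : Site d) (l : List (Step d)) :
    quenched (fun y => ω (y + x)) z l = quenched ω (z + x) l := by
  induction l generalizing z with
  | nil => simp [quenched_nil]
  | cons e l ih =>
    rw [quenched_cons, quenched_cons, ih]
    have : z + stepVec e + x = z + x + stepVec e := by abel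
    rw [this]

variable (μ : Measure (Step d → ℝ)) [IsProbabilityMeasure μ]

/-- the product environment law -/
abbrev envLaw : Measure (Env d) := Measure.infinitePi fun _ : Site d => μ

lemma integral_quenched_translate (x : Site d) (l : List (Step d)) :
    ∫ ω, quenched ω x l ∂(envLaw μ) = ∫ ω, quenched ω 0 l ∂(envLaw μ) := by
  have hinj : Function.Injective fun y : Site d => y + x := add_left_injective x
  have hmap : (envLaw μ).map (fun ω y => ω (y + x)) = envLaw μ := by
    have := Measure.map_infinitePi_infinitePi_of_inj (P := fun _ : Site d => μ) hinj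
    exact this
  have hmeas : Measurable fun (ω : Env d) (y : Site d) => ω (y + x) :=
    measurable_pi_iff.2 fun y => measurable_pi_apply (y + x)
  conv_rhs => rw [← hmap]
  rw [integral_map hmeas.aemeasurable (measurable_quenched 0 l).aestronglyMeasurable]
  refine integral_congr_ae (Filter.Eventually.of_forall fun ω => ?_)
  simp only
  rw [quenched_shift, zero_add]

/-- the environment is good almost surely -/
lemma ae_good (hμ : ∀ᵐ p ∂μ, (∀ e, 0 < p e) ∧ ∑ e, p e = 1) :
    ∀ᵐ ω ∂(envLaw μ), ∀ x, (∀ e, 0 < ω x e) ∧ ∑ e, ω x e = 1 := by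
  rw [ae_all_iff]
  intro x
  have hmp := measurePreserving_eval_infinitePi (fun _ : Site d => μ) x
  exact hmp.quasiMeasurePreserving.ae hμ

lemma good_le_one {p : Step d → ℝ} (h : (∀ e, 0 < p e) ∧ ∑ e, p e = 1)
    (e : Step d) : p e ≤ 1 := by
  rw [← h.2]
  exact Finset.single_le_sum (f := p) (fun e' _ => (h.1 e').le) (Finset.mem_univ e)

lemma quenched_bounds {ω : Env d}
    (h : ∀ x, (∀ e, 0 < ω x e) ∧ ∑ e, ω x e = 1) (x : Site d) (l : List (Step d)) :
    0 < quenched ω x l ∧ quenched ω x l ≤ 1 := by
  induction l generalizing x with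
  | nil => simp [quenched_nil]
  | cons e l ih =>
    rw [quenched_cons]
    have h1 := (h x).1 e
    have h2 := good_le_one (h x) e
    obtain ⟨h3, h4⟩ := ih (x + stepVec e)
    constructor
    · exact mul_pos h1 h3
    · calc ω x e * quenched ω (x + stepVec e) l ≤ 1 * 1 :=
            mul_le_mul h2 h4 h3.le zero_le_one
        _ = 1 := one_mul 1

variable {μ}

lemma integrable_quenched (hμ : ∀ᵐ p ∂μ, (∀ e, 0 < p e) ∧ ∑ e, p e = 1)
    (x : Site d) (l : List (Step d)) : Integrable (fun ω => quenched ω x l) (envLaw μ) := by
  refine Integrable.of_bound (measurable_quenched x l).aestronglyMeasurable 1 ?_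
  filter_upwards [ae_good μ hμ] with ω hω
  have := quenched_bounds hω x l
  rw [Real.norm_eq_abs, abs_le]
  constructor <;> linarith [this.1, this.2]

lemma integral_quenched_pos (hμ : ∀ᵐ p ∂μ, (∀ e, 0 < p e) ∧ ∑ e, p e = 1)
    (x : Site d) (l : List (Step d)) : 0 < ∫ ω, quenched ω x l ∂(envLaw μ) := by
  rw [integral_pos_iff_support_of_nonneg_ae _ (integrable_quenched hμ x l)]
  · have h1 : ∀ᵐ ω ∂(envLaw μ), ω ∈ Function.support fun ω => quenched ω x l := by
      filter_upwards [ae_good μ hμ] with ω hω
      exact (quenched_bounds hω x l).1.ne'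
    have h2 : (envLaw μ) (Function.support fun ω => quenched ω x l) = 1 := by
      rw [← prob_compl_eq_zero_iff₀]
      · exact ae_iff.1 h1
      · exact (measurable_quenched x l (measurableSet_singleton 0).compl).nullMeasurableSet
    rw [h2]
    norm_num
  · filter_upwards [ae_good μ hμ] with ω hω
    exact (quenched_bounds hω x l).1.le

/-- independence of the quenched weights on disjoint exit sets -/
lemma indep_quenched {x y : Site d} {g f : List (Step d)}
    (h : ∀ a < g.length, ∀ b < f.length, x + pos stepVec g a ≠ y + pos stepVec f b) :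
    IndepFun (fun ω => quenched ω x g) (fun ω => quenched ω y f) (envLaw μ) := by
  classical
  let S : Finset (Site d) := (Finset.range g.length).image fun a => x + pos stepVec g a
  let T : Finset (Site d) := (Finset.range f.length).image fun b => y + pos stepVec f b
  have hST : Disjoint S T := by
    rw [Finset.disjoint_left]
    intro z hz hz'
    obtain ⟨a, ha, rfl⟩ := Finset.mem_image.1 hz
    obtain ⟨b, hb, hab⟩ := Finset.mem_image.1 hz'
    exact h a (Finset.mem_range.1 ha) b (Finset.mem_range.1 hb) hab.symm
  have hind : iIndepFun (fun (i : Site d) (ω : Env d) => ω i) (envLaw μ) :=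
    iIndepFun_infinitePi (P := fun _ : Site d => μ) (X := fun _ ω => ω) (fun _ => measurable_id)
  have h1 := hind.indepFun_finset S T hST (fun i => measurable_pi_apply i)
  -- extension by zero of a restricted environment
  let ext (W : Finset (Site d)) (η : W → Step d → ℝ) : Env d :=
    fun z => if hz : z ∈ W then η ⟨z, hz⟩ else 0
  have hext : ∀ W : Finset (Site d), Measurable (ext W) := by
    intro W
    refine measurable_pi_iff.2 fun z => ?_
    by_cases hz : z ∈ W
    · simp only [ext, hz, dif_pos]
      exact measurable_pi_apply _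
    · simp only [ext, hz, dif_neg, not_false_iff]
      exact measurable_const
  have hφ : Measurable fun η : S → Step d → ℝ => quenched (ext S η) x g :=
    (measurable_quenched x g).comp (hext S)
  have hψ : Measurable fun η : T → Step d → ℝ => quenched (ext T η) y f :=
    (measurable_quenched y f).comp (hext T)
  have h2 := h1.comp hφ hψ
  have e1 : (fun ω : Env d => quenched ω x g) =
      (fun η : S → Step d → ℝ => quenched (ext S η) x g) ∘ (fun ω (i : S) => ω i) := by
    funext ω
    refine quenched_congr x g fun a ha => ?_
    have hmem : x + pos stepVec g a ∈ S :=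
      Finset.mem_image.2 ⟨a, Finset.mem_range.2 ha, rfl⟩
    simp [ext, hmem]
  have e2 : (fun ω : Env d => quenched ω y f) =
      (fun η : T → Step d → ℝ => quenched (ext T η) y f) ∘ (fun ω (i : T) => ω i) := by
    funext ω
    refine quenched_congr y f fun b hb => ?_
    have hmem : y + pos stepVec f b ∈ T :=
      Finset.mem_image.2 ⟨b, Finset.mem_range.2 hb, rfl⟩
    simp [ext, hmem]
  rw [e1, e2]
  exact h2

/-- the annealed weights are multiplicative on lists with disjoint exits -/
lemma integral_append_eq {g f : List (Step d)}
    (h : ∀ a < g.length, ∀ b < f.length, pos stepVec g a ≠ disp stepVec g + pos stepVec f b) :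
    ∫ ω, quenched ω 0 (g ++ f) ∂(envLaw μ) =
      (∫ ω, quenched ω 0 g ∂(envLaw μ)) * ∫ ω, quenched ω 0 f ∂(envLaw μ) := by
  have h1 : ∀ ω : Env d, quenched ω 0 (g ++ f) = quenched ω 0 g * quenched ω (disp stepVec g) f := by
    intro ω
    rw [quenched_append, zero_add]
  simp_rw [h1]
  have hind : IndepFun (fun ω => quenched ω 0 g) (fun ω => quenched ω (disp stepVec g) f) (envLaw μ) :=
    indep_quenched (x := 0) (y := disp stepVec g) (fun a ha b hb => by
      rw [zero_add]; exact h a ha b hb)
  rw [hind.integral_fun_mul_eq_mul_integral (measurable_quenched 0 g).aestronglyMeasurable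
    (measurable_quenched _ f).aestronglyMeasurable, integral_quenched_translate μ (disp stepVec g) f]

lemma integral_append_le (hμ : ∀ᵐ p ∂μ, (∀ e, 0 < p e) ∧ ∑ e, p e = 1)
    (g f : List (Step d)) :
    ∫ ω, quenched ω 0 (g ++ f) ∂(envLaw μ) ≤ ∫ ω, quenched ω 0 f ∂(envLaw μ) := by
  rw [← integral_quenched_translate μ (disp stepVec g) f]
  refine integral_mono_ae (integrable_quenched hμ _ _) (integrable_quenched hμ _ _) ?_
  filter_upwards [ae_good μ hμ] with ω hω
  rw [quenched_append, zero_add]
  have h1 := quenched_bounds hω 0 g
  have h2 := quenched_bounds hω (disp stepVec g) f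
  calc quenched ω 0 g * quenched ω (disp stepVec g) f ≤ 1 * quenched ω (disp stepVec g) f :=
        mul_le_mul_of_nonneg_right h1.2 h2.1.le
    _ = _ := one_mul _

/-- the annealed law satisfies the hypotheses of the core theorem -/
lemma model_of_annealed (hμ : ∀ᵐ p ∂μ, (∀ e, 0 < p e) ∧ ∑ e, p e = 1)
    {Q : Measure (ℕ → Step d)} (hQ : IsAnnealedLaw μ Q) :
    Model (stepVec (d := d)) Q := by
  have hcyl : ∀ l : List (Step d), Q (cyl l) =
      ENNReal.ofReal (∫ ω, quenched ω 0 l ∂(envLaw μ)) := fun l => hQ l
  refine ⟨fun g f h => ?_, fun g f => ?_, fun l => ?_⟩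
  · rw [hcyl, hcyl, hcyl, integral_append_eq h,
      ENNReal.ofReal_mul (integral_quenched_pos hμ 0 g).le]
  · rw [hcyl, hcyl]
    exact ENNReal.ofReal_le_ofReal (integral_append_le hμ g f)
  · rw [hcyl]
    exact (ENNReal.ofReal_pos.2 (integral_quenched_pos hμ 0 l)).ne'

end Vale.Agent.Lib.P147
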