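import Mathlib

/-! # P147: binomial smoothing sums, the central binomial bound and the tail estimate -/

open MeasureTheory Set Filter Topology
open scoped ENNReal

noncomputable section

namespace Vale.Agent.Lib.P147

/-- binomial weights as extended reals -/
def pb (s k : ℕ) : ℝ≥0∞ := (s.choose k : ℝ≥0∞) * (2⁻¹) ^ s

/-- binomial average -/
def S1 (s : ℕ) (G : ℕ → ℝ≥0∞) : ℝ≥0∞ := ∑' k, pb s k * G k

lemma pb_succ_zero (s : ℕ) : pb (s + 1) 0 = 2⁻¹ * pb s 0 := by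
  simp [pb, pow_succ, mul_comm]

lemma pb_succ_succ (s k : ℕ) : pb (s + 1) (k + 1) = 2⁻¹ * (pb s k + pb s (k + 1)) := by
  simp only [pb, Nat.choose_succ_succ, Nat.cast_add, pow_succ]
  ring

lemma S1_zero (G : ℕ → ℝ≥0∞) : S1 0 G = G 0 := by
  unfold S1
  rw [tsum_eq_single 0]
  · simp [pb]
  · intro k hk
    have : pb 0 k = 0 := by
      obtain ⟨k', rfl⟩ := Nat.exists_eq_succ_of_ne_zero hk
      simp [pb]
    rw [this, zero_mul]

lemma S1_add (s : ℕ) (G G' : ℕ → ℝ≥0∞) :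
    S1 s (fun k => G k + G' k) = S1 s G + S1 s G' := by
  unfold S1
  rw [← ENNReal.tsum_add]
  exact tsum_congr fun k => mul_add _ _ _

lemma S1_mul (s : ℕ) (c : ℝ≥0∞) (G : ℕ → ℝ≥0∞) :
    S1 s (fun k => c * G k) = c * S1 s G := by
  unfold S1
  rw [← ENNReal.tsum_mul_left]
  exact tsum_congr fun k => mul_left_comm _ _ _

lemma S1_mono (s : ℕ) {G G' : ℕ → ℝ≥0∞} (h : ∀ k, G k ≤ G' k) : S1 s G ≤ S1 s G' :=
  ENNReal.tsum_le_tsum fun k => mul_le_mul_right (h k) _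

lemma S1_succ (s : ℕ) (G : ℕ → ℝ≥0∞) :
    S1 (s + 1) G = 2⁻¹ * (S1 s G + S1 s (fun k => G (k + 1))) := by
  unfold S1
  rw [tsum_eq_zero_add' ENNReal.summable, tsum_eq_zero_add' (f := fun k => pb s k * G k) ENNReal.summable]
  simp only [pb_succ_zero, pb_succ_succ]
  have h1 : ∑' k, 2⁻¹ * (pb s k + pb s (k + 1)) * G (k + 1) =
      2⁻¹ * (∑' k, pb s (k + 1) * G (k + 1) + ∑' k, pb s k * G (k + 1)) := by
    rw [← ENNReal.tsum_add, ← ENNReal.tsum_mul_left]
    refine tsum_congr fun k => ?_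
    ring
  rw [h1]
  ring

lemma S1_one (s : ℕ) : S1 s (fun _ => 1) = 1 := by
  induction s with
  | zero => simp [S1_zero]
  | succ s ih =>
    rw [S1_succ, ih]
    simp only [← two_mul]
    rw [mul_one]
    exact ENNReal.inv_mul_cancel (by norm_num) (by norm_num)

lemma S1_le_of_forall (s : ℕ) {G : ℕ → ℝ≥0∞} {c : ℝ≥0∞} (h : ∀ k, G k ≤ c) : S1 s G ≤ c := by
  calc S1 s G ≤ S1 s (fun _ => c * 1) := S1_mono s (fun k => by simpa using h k)
    _ = c * S1 s (fun _ => 1) := S1_mul s c _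
    _ = c := by rw [S1_one, mul_one]

lemma S1_le_bd {s : ℕ} {b : ℝ≥0∞} (h : ∀ k, pb s k ≤ b) (G : ℕ → ℝ≥0∞) :
    S1 s G ≤ b * ∑' k, G k := by
  unfold S1
  rw [← ENNReal.tsum_mul_left]
  exact ENNReal.tsum_le_tsum fun k => mul_le_mul_left (h k) _

/-- triple binomial average -/
def S3 (s : ℕ) (G : ℕ → ℕ → ℕ → ℝ≥0∞) : ℝ≥0∞ :=
  S1 s (fun a => S1 s (fun b => S1 s (fun c => G a b c)))

lemma S3_zero (G : ℕ → ℕ → ℕ → ℝ≥0∞) : S3 0 G = G 0 0 0 := by
  simp [S3, S1_zero]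

lemma S3_succ (s : ℕ) (G : ℕ → ℕ → ℕ → ℝ≥0∞) :
    S3 (s + 1) G = 2⁻¹ * 2⁻¹ * 2⁻¹ * (S3 s (fun a b c => G a b c) + S3 s (fun a b c => G a b (c + 1)) +
      S3 s (fun a b c => G a (b + 1) c) + S3 s (fun a b c => G a (b + 1) (c + 1)) +
      S3 s (fun a b c => G (a + 1) b c) + S3 s (fun a b c => G (a + 1) b (c + 1)) +
      S3 s (fun a b c => G (a + 1) (b + 1) c) + S3 s (fun a b c => G (a + 1) (b + 1) (c + 1))) := by
  simp only [S3, S1_succ, S1_add, S1_mul]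
  ring

lemma S3_le_of_forall (s : ℕ) {G : ℕ → ℕ → ℕ → ℝ≥0∞} {c : ℝ≥0∞} (h : ∀ a b d, G a b d ≤ c) :
    S3 s G ≤ c :=
  S1_le_of_forall s fun a => S1_le_of_forall s fun b => S1_le_of_forall s fun d => h a b d

lemma S3_le_bd {s : ℕ} {b : ℝ≥0∞} (h : ∀ k, pb s k ≤ b) (G : ℕ → ℕ → ℕ → ℝ≥0∞) :
    S3 s G ≤ b ^ 3 * ∑' p : ℕ × ℕ × ℕ, G p.1 p.2.1 p.2.2 := by
  unfold S3
  rw [ENNReal.tsum_prod']
  simp only [ENNReal.tsum_prod']
  have h1 : ∀ a d, S1 s (fun c => G a d c) ≤ b * ∑' c, G a d c := fun a d => S1_le_bd h _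
  have h2 : ∀ a, S1 s (fun d => S1 s (fun c => G a d c)) ≤ b ^ 2 * ∑' d, ∑' c, G a d c := by
    intro a
    calc S1 s (fun d => S1 s (fun c => G a d c))
        ≤ S1 s (fun d => b * ∑' c, G a d c) := S1_mono s (h1 a)
      _ = b * S1 s (fun d => ∑' c, G a d c) := S1_mul s b _
      _ ≤ b * (b * ∑' d, ∑' c, G a d c) := mul_le_mul_right (S1_le_bd h _) _
      _ = _ := by ring
  calc S1 s (fun a => S1 s (fun d => S1 s (fun c => G a d c)))
      ≤ S1 s (fun a => b ^ 2 * ∑' d, ∑' c, G a d c) := S1_mono s h2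
    _ = b ^ 2 * S1 s (fun a => ∑' d, ∑' c, G a d c) := S1_mul s _ _
    _ ≤ b ^ 2 * (b * ∑' a, ∑' d, ∑' c, G a d c) := mul_le_mul_right (S1_le_bd h _) _
    _ = _ := by ring

/-! ### central binomial bound -/

lemma cb_sq (n : ℕ) : (Nat.centralBinom n) ^ 2 * (2 * n + 1) ≤ 16 ^ n := by
  induction n with
  | zero => simp
  | succ n ih =>
    have h1 := Nat.succ_mul_centralBinom_succ n
    set c := Nat.centralBinom n
    set c' := Nat.centralBinom (n + 1)
    have h2 : (n + 1) ^ 2 * (c' ^ 2 * (2 * (n + 1) + 1)) ≤ (n + 1) ^ 2 * 16 ^ (n + 1) := by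
      calc (n + 1) ^ 2 * (c' ^ 2 * (2 * (n + 1) + 1))
          = ((n + 1) * c') ^ 2 * (2 * n + 3) := by ring
        _ = (2 * (2 * n + 1) * c) ^ 2 * (2 * n + 3) := by rw [h1]
        _ = 4 * (2 * n + 1) * (2 * n + 3) * (c ^ 2 * (2 * n + 1)) := by ring
        _ ≤ 4 * (2 * n + 1) * (2 * n + 3) * 16 ^ n := Nat.mul_le_mul_left _ ih
        _ ≤ (16 * (n + 1) ^ 2) * 16 ^ n := by
            apply Nat.mul_le_mul_right
            nlinarith
        _ = _ := by ring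
    exact Nat.le_of_mul_le_mul_left h2 (by positivity)

/-- the real sequence bounding the binomial weights -/
def qr (n : ℕ) : ℝ := (Nat.centralBinom n : ℝ) / 4 ^ n

lemma qr_nonneg (n : ℕ) : 0 ≤ qr n := by unfold qr; positivity

lemma qr_sq (n : ℕ) : qr n ^ 2 * (2 * n + 1) ≤ 1 := by
  have h := cb_sq n
  have h1 : ((Nat.centralBinom n : ℝ)) ^ 2 * (2 * n + 1) ≤ 16 ^ n := by exact_mod_cast h
  unfold qr
  rw [div_pow, div_mul_eq_mul_div, div_le_one (by positivity)]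
  calc _ ≤ (16 : ℝ) ^ n := h1
    _ = (4 ^ n) ^ 2 := by
      rw [← pow_mul, mul_comm, pow_mul]
      norm_num

lemma ofReal_qr (n : ℕ) :
    ENNReal.ofReal (qr n) = (Nat.centralBinom n : ℝ≥0∞) * (2⁻¹) ^ (2 * n) := by
  unfold qr
  have h : (2⁻¹ : ℝ≥0∞) ^ (2 * n) = ((4 : ℝ≥0∞) ^ n)⁻¹ := by
    rw [pow_mul, ← ENNReal.inv_pow, ← ENNReal.inv_pow]
    norm_num
  rw [ENNReal.ofReal_div_of_pos (by positivity), ENNReal.ofReal_natCast,
    ENNReal.ofReal_pow (by norm_num), div_eq_mul_inv, h, ENNReal.ofReal_ofNat]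

/-- uniform bound for the binomial weights -/
lemma pb_le (s k : ℕ) : pb s k ≤ ENNReal.ofReal (qr (s / 2)) := by
  rw [ofReal_qr]
  rcases Nat.even_or_odd' s with ⟨n, rfl | rfl⟩
  · have h2 : 2 * n / 2 = n := by omega
    rw [h2]
    unfold pb
    refine mul_le_mul_left ?_ _
    exact Nat.cast_le.2 (Nat.choose_le_centralBinom k n)
  · have h2 : (2 * n + 1) / 2 = n := by omega
    rw [h2]
    unfold pb
    have h3 : (2 * n + 1).choose k ≤ 2 * Nat.centralBinom n := by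
      cases k with
      | zero =>
        have := Nat.centralBinom_pos n
        simp only [Nat.choose_zero_right]
        omega
      | succ k =>
        rw [Nat.choose_succ_succ']
        have h4 := Nat.choose_le_centralBinom k n
        have h5 := Nat.choose_le_centralBinom (k + 1) n
        omega
    calc ((2 * n + 1).choose k : ℝ≥0∞) * 2⁻¹ ^ (2 * n + 1)
        ≤ ((2 * Nat.centralBinom n : ℕ) : ℝ≥0∞) * 2⁻¹ ^ (2 * n + 1) :=
          mul_le_mul_left (Nat.cast_le.2 h3) _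
      _ = (Nat.centralBinom n : ℝ≥0∞) * (2⁻¹) ^ (2 * n) * (2 * 2⁻¹) := by
          push_cast
          rw [pow_succ]
          ring
      _ = _ := by
          rw [ENNReal.mul_inv_cancel (by norm_num) (by norm_num), mul_one]

/-- the cube of the binomial bound -/
def acube (s : ℕ) : ℝ≥0∞ := ENNReal.ofReal (qr (s / 2)) ^ 3

lemma qr_cube_le (n : ℕ) : qr n ^ 3 ≤ 1 / ((2 * n + 1 : ℕ) : ℝ) ^ (3 / 2 : ℝ) := by
  have hx : (0 : ℝ) < ((2 * n + 1 : ℕ) : ℝ) := by positivity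
  set x : ℝ := ((2 * n + 1 : ℕ) : ℝ) with hxdef
  have h1 : qr n ^ 2 ≤ x⁻¹ := by
    have := qr_sq n
    rw [le_inv_comm₀ (by
      by_contra h
      have h0 : qr n ^ 2 = 0 := le_antisymm (not_lt.1 h) (by positivity)
      have : qr n = 0 := by simpa using h0
      have h3 : qr n ≠ 0 := by
        unfold qr
        have := Nat.centralBinom_pos n
        positivity
      exact h3 this) hx]
    rw [le_inv_comm₀ hx (by
      by_contra h
      have h0 : qr n ^ 2 = 0 := le_antisymm (not_lt.1 h) (by positivity)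
      have : qr n = 0 := by simpa using h0
      have h3 : qr n ≠ 0 := by
        unfold qr
        have := Nat.centralBinom_pos n
        positivity
      exact h3 this)]
    have h5 : x = 2 * n + 1 := by simp [hxdef]
    rw [← one_div, le_div_iff₀ hx, h5]
    exact this
  have h2 : qr n ≤ x⁻¹ ^ (1 / 2 : ℝ) := by
    rw [← Real.sqrt_eq_rpow]
    exact Real.le_sqrt_of_sq_le h1
  have h3 : qr n ^ 3 ≤ (x⁻¹ ^ (1 / 2 : ℝ)) ^ 3 := pow_le_pow_left₀ (qr_nonneg n) h2 3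
  refine h3.trans (le_of_eq ?_)
  rw [← Real.rpow_natCast, ← Real.rpow_mul (by positivity), Real.inv_rpow hx.le, one_div]
  norm_num

lemma tsum_acube_ne_top : ∑' s, acube s ≠ ∞ := by
  have hsum : Summable fun n : ℕ => 1 / ((2 * n + 1 : ℕ) : ℝ) ^ (3 / 2 : ℝ) := by
    have h := (Real.summable_one_div_nat_rpow (p := 3 / 2)).2 (by norm_num)
    have hinj : Function.Injective fun n : ℕ => 2 * n + 1 := by
      intro a b hab
      simp only at hab
      omega
    exact h.comp_injective hinj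
  have h1 : ∑' n : ℕ, ENNReal.ofReal (1 / ((2 * n + 1 : ℕ) : ℝ) ^ (3 / 2 : ℝ)) ≠ ∞ :=
    hsum.tsum_ofReal_ne_top
  have h2 : ∀ n, ENNReal.ofReal (qr n) ^ 3 ≤ ENNReal.ofReal (1 / ((2 * n + 1 : ℕ) : ℝ) ^ (3 / 2 : ℝ)) := by
    intro n
    rw [← ENNReal.ofReal_pow (qr_nonneg n)]
    exact ENNReal.ofReal_le_ofReal (qr_cube_le n)
  have h3 : ∑' s, acube s = ∑' k, acube (2 * k) + ∑' k, acube (2 * k + 1) :=
    (tsum_even_add_odd ENNReal.summable ENNReal.summable).symm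
  rw [h3]
  have h4 : ∀ k, acube (2 * k) = ENNReal.ofReal (qr k) ^ 3 := by
    intro k
    simp [acube]
  have h5 : ∀ k, acube (2 * k + 1) = ENNReal.ofReal (qr k) ^ 3 := by
    intro k
    have : (2 * k + 1) / 2 = k := by omega
    simp [acube, this]
  simp_rw [h4, h5]
  have h6 : ∑' k, ENNReal.ofReal (qr k) ^ 3 ≠ ∞ :=
    ne_top_of_le_ne_top h1 (ENNReal.tsum_le_tsum h2)
  exact ENNReal.add_ne_top.2 ⟨h6, h6⟩

/-- tail estimate: the smoothing sum is `o(R^3)` -/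
lemma tail_estimate {a : ℕ → ℝ≥0∞} (ha : ∑' s, a s ≠ ∞) {ε : ℝ≥0∞} (hε : ε ≠ 0) :
    ∃ R0 : ℕ, ∀ R : ℕ, R0 ≤ R →
      ∑' s, min 1 (a s * (R : ℝ≥0∞) ^ 3) ≤ ε * (R : ℝ≥0∞) ^ 3 := by
  have hε2 : ε / 2 ≠ 0 := by
    simp [ENNReal.div_eq_top, hε]
  have h1 := ENNReal.tendsto_tsum_compl_atTop_zero ha
  have h2 : ∀ᶠ S : Finset ℕ in atTop, ∑' b : {x // x ∉ S}, a b < ε / 2 :=
    h1.eventually_lt_const (pos_iff_ne_zero.2 hε2)
  obtain ⟨S, hS⟩ := h2.exists
  obtain ⟨R1, hR1⟩ := ENNReal.exists_nat_mul_gt hε2 (ENNReal.natCast_ne_top S.card)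
  refine ⟨R1 + 1, fun R hR => ?_⟩
  have hRpos : 1 ≤ R := by omega
  have hR3 : (R1 : ℝ≥0∞) ≤ (R : ℝ≥0∞) ^ 3 := by
    have : R1 ≤ R ^ 3 := by
      calc R1 ≤ R := by omega
        _ = R ^ 1 := (pow_one R).symm
        _ ≤ R ^ 3 := Nat.pow_le_pow_right hRpos (by norm_num)
    exact_mod_cast this
  set R3 := (R : ℝ≥0∞) ^ 3 with hR3def
  have hsplit : ∀ s, min 1 (a s * R3) ≤ (if s ∈ S then 1 else 0) +
      (if s ∈ S then 0 else a s * R3) := by
    intro s
    by_cases hs : s ∈ S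
    · simp [hs]
    · simp [hs]
  calc ∑' s, min 1 (a s * R3)
      ≤ ∑' s, ((if s ∈ S then 1 else 0) + (if s ∈ S then 0 else a s * R3)) :=
        ENNReal.tsum_le_tsum hsplit
    _ = ∑' s, (if s ∈ S then (1 : ℝ≥0∞) else 0) + ∑' s, (if s ∈ S then 0 else a s * R3) :=
        ENNReal.tsum_add
    _ ≤ S.card + (ε / 2) * R3 := by
        refine add_le_add ?_ ?_
        · have : ∑' s, (if s ∈ S then (1 : ℝ≥0∞) else 0) = ∑ s ∈ S, 1 := by
            rw [tsum_eq_sum (s := S)]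
            · exact Finset.sum_congr rfl fun s hs => by simp [hs]
            · intro s hs; simp [hs]
          rw [this]; simp
        · have h3 : ∑' s, (if s ∈ S then 0 else a s * R3) = ∑' b : {x // x ∉ S}, a b * R3 := by
            have h4 : (∑' b : {x // x ∉ S}, a b * R3) =
                ∑' s, Set.indicator {x | x ∉ S} (fun s => a s * R3) s :=
              tsum_subtype {x | x ∉ S} (fun s => a s * R3)
            rw [h4]
            refine tsum_congr fun s => ?_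
            by_cases hs : s ∈ S
            · simp [hs, Set.indicator]
            · simp [hs, Set.indicator]
          rw [h3, ENNReal.tsum_mul_right]
          exact mul_le_mul_left hS.le _
    _ ≤ (ε / 2) * R3 + (ε / 2) * R3 := by
        refine add_le_add ?_ le_rfl
        calc (S.card : ℝ≥0∞) ≤ R1 * (ε / 2) := hR1.le
          _ ≤ R3 * (ε / 2) := mul_le_mul_left hR3 _
          _ = _ := mul_comm _ _
    _ = ε * R3 := by
        rw [← add_mul, ENNReal.add_halves]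

end Vale.Agent.Lib.P147
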