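import Vale.Agent.Lib.P147.GreenInd
import Vale.Agent.Lib.P147.Smooth

/-! # P147: the Green sum over a transverse box is `o(R^3)` -/

open MeasureTheory Set Filter Topology
open scoped ENNReal

noncomputable section

namespace Vale.Agent.Lib.P147

open scoped Classical

variable {U V : Type*} [AddCommGroup V] {st : U → V} {ht : V →+ ℤ}

/-- the axes used: one step up, one step down and three independent level-preserving steps -/
structure Axes (st : U → V) (ht : V →+ ℤ) (Eu Ed E0 E1 E2 : U) : Prop where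
  hu : ht (st Eu) = 1
  hd : st Ed = - st Eu
  h0 : ht (st E0) = 0
  h1 : ht (st E1) = 0
  h2 : ht (st E2) = 0
  inj : ∀ a b c a' b' c' : ℕ, a • st E0 + b • st E1 + c • st E2 = a' • st E0 + b' • st E1 + c' • st E2 →
    a = a' ∧ b = b' ∧ c = c'

variable (st) in
/-- a transverse vector -/
def tr (E0 E1 E2 : U) (a b c : ℕ) : V := a • st E0 + b • st E1 + c • st E2

variable (st) in
/-- the position of a smoothing walk -/
def Phi (Eu E0 E1 E2 : U) (s a b c : ℕ) : V := s • st Eu + tr st E0 E1 E2 a b c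

/-- the atoms: up to three transverse steps followed by one step up -/
def atom (Eu E0 E1 E2 : U) (ε : Bool × Bool × Bool) : List U :=
  (if ε.1 then [E0] else []) ++ (if ε.2.1 then [E1] else []) ++ (if ε.2.2 then [E2] else []) ++ [Eu]

lemma disp_atom (Eu E0 E1 E2 : U) (ε : Bool × Bool × Bool) :
    disp st (atom Eu E0 E1 E2 ε) =
      st Eu + tr st E0 E1 E2 ε.1.toNat ε.2.1.toNat ε.2.2.toNat := by
  rcases ε with ⟨x, y, z⟩
  cases x <;> cases y <;> cases z <;> simp [atom, tr, disp] <;> abel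

lemma length_atom_le (Eu E0 E1 E2 : U) (ε : Bool × Bool × Bool) :
    (atom Eu E0 E1 E2 ε).length ≤ 4 := by
  rcases ε with ⟨x, y, z⟩
  cases x <;> cases y <;> cases z <;> simp [atom]

section level

variable {Eu Ed E0 E1 E2 : U}

lemma ht_tr (ax : Axes st ht Eu Ed E0 E1 E2) (a b c : ℕ) : ht (tr st E0 E1 E2 a b c) = 0 := by
  simp [tr, ax.h0, ax.h1, ax.h2]

lemma tr_inj (ax : Axes st ht Eu Ed E0 E1 E2) {a b c a' b' c' : ℕ}
    (h : tr st E0 E1 E2 a b c = tr st E0 E1 E2 a' b' c') : a = a' ∧ b = b' ∧ c = c' :=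
  ax.inj a b c a' b' c' h

lemma atom_inj (ax : Axes st ht Eu Ed E0 E1 E2) :
    Function.Injective (atom Eu E0 E1 E2) := by
  intro ε ε' h
  have h1 : disp st (atom Eu E0 E1 E2 ε) = disp st (atom Eu E0 E1 E2 ε') := by rw [h]
  rw [disp_atom, disp_atom] at h1
  have h2 := tr_inj ax (add_left_cancel h1)
  have hb : ∀ x y : Bool, x.toNat = y.toNat → x = y := by decide
  exact Prod.ext (hb _ _ h2.1) (Prod.ext (hb _ _ h2.2.1) (hb _ _ h2.2.2))

lemma ht_disp_of_transverse {l : List U} (hl : ∀ e ∈ l, ht (st e) = 0) : ht (disp st l) = 0 := by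
  induction l with
  | nil => simp
  | cons e l ih =>
    rw [disp_cons, map_add, hl e (by simp), ih (fun e' he' => hl e' (by simp [he'])), add_zero]

lemma block_of_transverse {l : List U} {e : U} (hl : ∀ e ∈ l, ht (st e) = 0) (he : ht (st e) = 1) :
    Block st ht (l ++ [e]) := by
  have hlow : ∀ a, a ≤ l.length → lvl st ht (l ++ [e]) a = 0 := by
    intro a ha
    rw [lvl_append_of_le _ ha]
    exact ht_disp_of_transverse fun e' he' => hl e' (List.mem_of_mem_take he')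
  have hd : ht (disp st (l ++ [e])) = 1 := by
    rw [disp_append, map_add, ht_disp_of_transverse hl]
    simp [he]
  have hup : Up st ht (l ++ [e]) := by
    rw [up_iff]
    refine ⟨fun a => ?_, fun a ha => ?_⟩
    · by_cases ha : a ≤ l.length
      · rw [hlow a ha]
      · rw [lvl_of_length_le (by simp; omega), hd]; norm_num
    · rw [hd, hlow a (by simp at ha; omega)]; norm_num
  refine ⟨by simp, hup, fun r hr hr' hreg => ?_⟩
  have h1 := hreg.2.1 0 hr
  rw [lvl_zero, hlow r (by simp at hr'; omega)] at h1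
  exact lt_irrefl _ h1

lemma block_atom (ax : Axes st ht Eu Ed E0 E1 E2) (ε : Bool × Bool × Bool) :
    Block st ht (atom Eu E0 E1 E2 ε) := by
  refine block_of_transverse ?_ ax.hu
  intro e he
  simp only [List.mem_append] at he
  rcases he with (he | he) | he
  · split_ifs at he <;> simp_all [ax.h0]
  · split_ifs at he <;> simp_all [ax.h1]
  · split_ifs at he <;> simp_all [ax.h2]

end level

variable (st) in
/-- iterated averaging over the atoms -/
def iterH (Eu E0 E1 E2 : U) (F : V → ℝ≥0∞) : ℕ → V → ℝ≥0∞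
  | 0, z => F z
  | s + 1, z => ((Fintype.card (Bool × Bool × Bool) : ℕ) : ℝ≥0∞)⁻¹ *
      ∑ ε, iterH Eu E0 E1 E2 F s (z - disp st (atom Eu E0 E1 E2 ε))

lemma card_inv_eq : ((Fintype.card (Bool × Bool × Bool) : ℕ) : ℝ≥0∞)⁻¹ = 2⁻¹ * 2⁻¹ * 2⁻¹ := by
  have h : Fintype.card (Bool × Bool × Bool) = 8 := by decide
  rw [h, ← ENNReal.mul_inv (by norm_num) (by norm_num), ← ENNReal.mul_inv (by norm_num) (by norm_num)]
  norm_num

lemma Phi_succ (Eu E0 E1 E2 : U) (s a b c x y z : ℕ) :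
    Phi st Eu E0 E1 E2 (s + 1) (a + x) (b + y) (c + z) =
      st Eu + tr st E0 E1 E2 x y z + Phi st Eu E0 E1 E2 s a b c := by
  simp only [Phi, tr, add_smul, one_smul]
  abel

lemma iterH_eq (Eu E0 E1 E2 : U) (F : V → ℝ≥0∞) (s : ℕ) (z : V) :
    iterH st Eu E0 E1 E2 F s z =
      S3 s (fun a b c => F (z - Phi st Eu E0 E1 E2 s a b c)) := by
  induction s generalizing z with
  | zero =>
    rw [S3_zero]
    simp [iterH, Phi, tr]
  | succ s ih =>
    rw [S3_succ, iterH, card_inv_eq]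
    congr 1
    simp_rw [ih, disp_atom]
    have hG : ∀ x y w : ℕ, (fun a b c => F (z - (st Eu + tr st E0 E1 E2 x y w) -
        Phi st Eu E0 E1 E2 s a b c)) =
        fun a b c => F (z - Phi st Eu E0 E1 E2 (s + 1) (a + x) (b + y) (c + w)) := by
      intro x y w
      funext a b c
      rw [Phi_succ, sub_sub]
    simp_rw [hG]
    simp only [Fintype.sum_prod_type, Fintype.sum_bool, Bool.toNat_true, Bool.toNat_false, add_zero]
    ring

/-! ### the second family of `Up` lists -/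

section upG

variable [MeasurableSpace U] {Q : Measure (ℕ → U)}

variable (st Q) in
/-- mass of `Up` lists with prescribed displacement -/
def upG (ht₂ : V →+ ℤ) (v : V) : ℝ≥0∞ :=
  ∑' f, if Up st ht₂ f ∧ disp st f = v then Q (cyl f) else 0

variable [MeasurableSingletonClass U] [Countable U] [IsProbabilityMeasure Q]

lemma upG_family_le {ht₂ : V →+ ℤ} {I : Type*} {ι₀ : I → V} (hinj : Function.Injective ι₀) {T : ℤ}
    (hT : ∀ i, ht₂ (ι₀ i) = T) : ∑' i, upG st Q ht₂ (ι₀ i) ≤ 1 := by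
  unfold upG
  rw [ENNReal.tsum_comm]
  refine le_trans (ENNReal.tsum_le_tsum fun f => ?_) (up_mass_le_one (st := st) (ht := ht₂) (Q := Q) T)
  by_cases hex : ∃ i, Up st ht₂ f ∧ disp st f = ι₀ i
  · obtain ⟨i0, hup, hi0⟩ := hex
    rw [if_pos ⟨hup, by rw [hi0, hT]⟩]
    rw [tsum_eq_single i0]
    · rw [if_pos ⟨hup, hi0⟩]
    · intro i hi
      rw [if_neg]
      rintro ⟨_, h⟩
      exact hi (hinj (h.symm.trans hi0))
  · push Not at hex
    have : ∀ i, ¬ (Up st ht₂ f ∧ disp st f = ι₀ i) := fun i h => hex i h.1 h.2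
    simp [this]

variable (st Q) in
/-- sum of `upG` over a transverse box -/
def boxSum (ht₂ : V →+ ℤ) (E0 E1 E2 : U) (R : ℕ) (z : V) : ℝ≥0∞ :=
  ∑ p ∈ Finset.range R ×ˢ Finset.range R ×ˢ Finset.range R,
    upG st Q ht₂ (z - tr st E0 E1 E2 p.1 p.2.1 p.2.2)

variable {Eu Ed E0 E1 E2 : U}

lemma boxSum_le_one (ax : Axes st ht Eu Ed E0 E1 E2) {ht₂ : V →+ ℤ}
    (hh : ∀ x, ht₂ x = - ht x) (R : ℕ) (y : V) : boxSum st Q ht₂ E0 E1 E2 R y ≤ 1 := by
  refine le_trans (ENNReal.sum_le_tsum _) ?_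
  refine upG_family_le (T := ht₂ y) ?_ ?_
  · rintro ⟨a, b, c⟩ ⟨a', b', c'⟩ h
    simp only at h
    have h1 := tr_inj ax (sub_right_injective h)
    simp [h1.1, h1.2.1, h1.2.2]
  · intro p
    rw [map_sub, hh (tr st E0 E1 E2 _ _ _), ht_tr ax]
    simp

lemma tsum_boxSum_le (ax : Axes st ht Eu Ed E0 E1 E2) {ht₂ : V →+ ℤ}
    (hh : ∀ x, ht₂ x = - ht x) (R s : ℕ) (z : V) :
    ∑' p : ℕ × ℕ × ℕ, boxSum st Q ht₂ E0 E1 E2 R (z - Phi st Eu E0 E1 E2 s p.1 p.2.1 p.2.2) ≤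
      (R : ℝ≥0∞) ^ 3 := by
  unfold boxSum
  rw [Summable.tsum_finsetSum (fun _ _ => ENNReal.summable)]
  have h1 : ∀ q ∈ Finset.range R ×ˢ Finset.range R ×ˢ Finset.range R,
      ∑' p : ℕ × ℕ × ℕ, upG st Q ht₂ (z - Phi st Eu E0 E1 E2 s p.1 p.2.1 p.2.2 -
        tr st E0 E1 E2 q.1 q.2.1 q.2.2) ≤ 1 := by
    intro q _
    refine upG_family_le (T := ht₂ (z - s • st Eu - tr st E0 E1 E2 q.1 q.2.1 q.2.2)) ?_ ?_
    · rintro ⟨a, b, c⟩ ⟨a', b', c'⟩ h
      simp only [Phi] at h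
      have h2 := sub_left_injective h
      have h3 := sub_right_injective h2
      have h4 := tr_inj ax (add_left_cancel h3)
      simp [h4.1, h4.2.1, h4.2.2]
    · intro p
      have h5 : ht₂ (tr st E0 E1 E2 p.1 p.2.1 p.2.2) = 0 := by
        rw [hh, ht_tr ax]; simp
      simp only [Phi, map_sub, map_add, h5]
      ring
  calc _ ≤ ∑ _q ∈ Finset.range R ×ˢ Finset.range R ×ˢ Finset.range R, (1 : ℝ≥0∞) :=
        Finset.sum_le_sum h1
    _ = _ := by simp [pow_succ]; ring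

lemma iterH_box_le (ax : Axes st ht Eu Ed E0 E1 E2) {ht₂ : V →+ ℤ}
    (hh : ∀ x, ht₂ x = - ht x) (R s : ℕ) (z : V) :
    iterH st Eu E0 E1 E2 (boxSum st Q ht₂ E0 E1 E2 R) s z ≤ min 1 (acube s * (R : ℝ≥0∞) ^ 3) := by
  rw [iterH_eq]
  refine le_min (S3_le_of_forall s fun a b c => boxSum_le_one ax hh R _) ?_
  refine (S3_le_bd (pb_le s) _).trans ?_
  exact mul_le_mul_right (tsum_boxSum_le ax hh R s z) _

/-- the Green sum over the box is `o(R^3)`, uniformly in `z` -/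
lemma green_bound (m : Model st Q) (hmass : blockMass st ht Q ≤ 1)
    (ax : Axes st ht Eu Ed E0 E1 E2) {ht₂ : V →+ ℤ} (hh : ∀ x, ht₂ x = - ht x)
    {a : ℝ≥0∞} (ha0 : a ≠ 0) (hatop : a ≠ ∞)
    (hw : ∀ ε, a ≤ Q (cyl (atom Eu E0 E1 E2 ε))) {ε : ℝ≥0∞} (hε : ε ≠ 0) :
    ∃ R0 : ℕ, ∀ R : ℕ, R0 ≤ R → ∀ z : V,
      (∑' g, if Up st ht g then Q (cyl g) * boxSum st Q ht₂ E0 E1 E2 R (z - disp st g) else 0) ≤
        ε * (R : ℝ≥0∞) ^ 3 := by
  set c : ℝ≥0∞ := ((Fintype.card (Bool × Bool × Bool) : ℕ) : ℝ≥0∞) with hc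
  have hc0 : c ≠ 0 := by
    simp [hc, Fintype.card_ne_zero]
  have hctop : c ≠ ∞ := ENNReal.natCast_ne_top _
  have hα0 : c * a ≠ 0 := mul_ne_zero hc0 ha0
  have hαtop : c * a ≠ ∞ := ENNReal.mul_ne_top hctop hatop
  obtain ⟨R0, hR0⟩ := tail_estimate tsum_acube_ne_top (ε := c * a * ε) (mul_ne_zero hα0 hε)
  refine ⟨R0, fun R hR z => ?_⟩
  refine tsum_up_le_of_forall (ht := ht) (Q := Q) (fun x => boxSum st Q ht₂ E0 E1 E2 R (z - x)) fun B => ?_
  have h1 := green_ind (st := st) (ht := ht) (Q := Q) m prob_le_one hmass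
    (atom_inj ax) (block_atom ax) hw ha0 hatop
    (H := iterH st Eu E0 E1 E2 (boxSum st Q ht₂ E0 E1 E2 R))
    (h := fun s => min 1 (acube s * (R : ℝ≥0∞) ^ 3))
    (iterH_box_le ax hh R) (fun s z => rfl) B 0 z
  have h2 : (fun x => iterH st Eu E0 E1 E2 (boxSum st Q ht₂ E0 E1 E2 R) 0 (z - x)) =
      fun x => boxSum st Q ht₂ E0 E1 E2 R (z - x) := rfl
  rw [h2] at h1
  refine h1.trans ?_
  simp only [zero_add]
  calc (c * a)⁻¹ * ∑' t, min 1 (acube t * (R : ℝ≥0∞) ^ 3)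
      ≤ (c * a)⁻¹ * (c * a * ε * (R : ℝ≥0∞) ^ 3) := mul_le_mul_right (hR0 R hR) _
    _ = ((c * a)⁻¹ * (c * a)) * (ε * (R : ℝ≥0∞) ^ 3) := by ring
    _ = ε * (R : ℝ≥0∞) ^ 3 := by rw [ENNReal.inv_mul_cancel hα0 hαtop, one_mul]

end upG

end Vale.Agent.Lib.P147
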