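import Vale.Agent.Lib.P147.Blocks

/-! # P147: the induction bounding the Green sum by the smoothing sequence -/

open MeasureTheory Set Filter Topology
open scoped ENNReal

noncomputable section

namespace Vale.Agent.Lib.P147

open scoped Classical

variable {U V : Type*} [AddCommGroup V] {st : U → V} {ht : V →+ ℤ}
variable [MeasurableSpace U] {Q : Measure (ℕ → U)}

/-- sums over all `Up` lists from the bounds for bounded length -/
lemma tsum_up_le_of_forall (F : V → ℝ≥0∞) {C : ℝ≥0∞} (h : ∀ B, upSum st ht Q F B ≤ C) :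
    (∑' g, if Up st ht g then Q (cyl g) * F (disp st g) else 0) ≤ C := by
  rw [ENNReal.tsum_eq_iSup_sum]
  refine iSup_le fun S => ?_
  let M := S.sup List.length
  refine le_trans ?_ (h M)
  refine le_trans (le_of_eq ?_) (ENNReal.sum_le_tsum S)
  refine Finset.sum_congr rfl fun g hg => ?_
  have hlen : g.length ≤ M := Finset.le_sup (f := List.length) hg
  by_cases hup : Up st ht g
  · rw [if_pos hup, if_pos ⟨hup, hlen⟩]
  · rw [if_neg hup, if_neg (fun h => hup h.1)]

lemma alpha_W_step (h : ℕ → ℝ≥0∞) {α : ℝ≥0∞} (hα0 : α ≠ 0) (hαtop : α ≠ ∞) (s : ℕ) :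
    α * (α⁻¹ * ∑' t, h (s + t)) = h s + α * (α⁻¹ * ∑' t, h (s + 1 + t)) := by
  rw [← mul_assoc, ← mul_assoc, ENNReal.mul_inv_cancel hα0 hαtop, one_mul, one_mul]
  have h1 : ∑' t, h (s + t) = h (s + 0) + ∑' t, h (s + (t + 1)) :=
    tsum_eq_zero_add' (f := fun t => h (s + t)) ENNReal.summable
  rw [h1, add_zero]
  congr 1
  refine tsum_congr fun t => ?_
  congr 1
  omega

variable {ι : Type*} [Fintype ι]

/-- the atomic part of the block weight -/
def atomW (atom : ι → List U) (a : ℝ≥0∞) (b : List U) : ℝ≥0∞ := ∑ ε, if b = atom ε then a else 0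

lemma atomW_atom {atom : ι → List U} (hinj : Function.Injective atom) (a : ℝ≥0∞) (ε0 : ι) :
    atomW atom a (atom ε0) = a := by
  simp only [atomW]
  rw [Finset.sum_eq_single ε0]
  · simp
  · intro ε _ hne
    rw [if_neg]
    intro h'
    exact hne (hinj h').symm
  · simp

lemma atomW_le {atom : ι → List U} {a : ℝ≥0∞} (hinj : Function.Injective atom)
    (hw : ∀ ε, a ≤ Q (cyl (atom ε))) (b : List U) : atomW atom a b ≤ Q (cyl b) := by
  by_cases hb : ∃ ε, b = atom ε
  · obtain ⟨ε0, rfl⟩ := hb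
    rw [atomW_atom hinj]; exact hw ε0
  · push Not at hb
    have : atomW atom a b = 0 := by
      simp only [atomW]
      exact Finset.sum_eq_zero fun ε _ => if_neg (hb ε)
    rw [this]; exact zero_le

lemma tsum_atomW {atom : ι → List U} {a : ℝ≥0∞} (hblock : ∀ ε, Block st ht (atom ε)) :
    (∑' b, if Block st ht b then atomW atom a b else 0) = (Fintype.card ι : ℝ≥0∞) * a := by
  have h2 : ∀ b : List U, (if Block st ht b then atomW atom a b else 0) =
      ∑ ε, if b = atom ε then a else 0 := by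
    intro b
    by_cases hb : Block st ht b
    · rw [if_pos hb]; rfl
    · rw [if_neg hb]
      symm
      refine Finset.sum_eq_zero fun ε _ => if_neg ?_
      rintro rfl
      exact hb (hblock ε)
  simp_rw [h2]
  rw [Summable.tsum_finsetSum (fun _ _ => ENNReal.summable)]
  simp_rw [tsum_ite_eq]
  simp

lemma mass_split {atom : ι → List U} {a : ℝ≥0∞} (hmass : blockMass st ht Q ≤ 1)
    (hinj : Function.Injective atom) (hblock : ∀ ε, Block st ht (atom ε))
    (hw : ∀ ε, a ≤ Q (cyl (atom ε))) :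
    (∑' b, if Block st ht b then Q (cyl b) - atomW atom a b else 0) +
      (Fintype.card ι : ℝ≥0∞) * a ≤ 1 := by
  rw [← tsum_atomW (ht := ht) hblock, ← ENNReal.tsum_add]
  refine le_trans (le_of_eq ?_) hmass
  rw [blockMass]
  refine tsum_congr fun b => ?_
  by_cases hb : Block st ht b
  · simp only [if_pos hb]
    exact tsub_add_cancel_of_le (atomW_le hinj hw b)
  · simp [hb]

lemma nonatomic_part {atom : ι → List U} {a : ℝ≥0∞} (hinj : Function.Injective atom)
    (hw : ∀ ε, a ≤ Q (cyl (atom ε))) {B : ℕ} {Xb : List U → ℝ≥0∞} {W : ℝ≥0∞}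
    (hX : ∀ b, Block st ht b → b.length ≤ B → Xb b ≤ W) :
    (∑' b, if Block st ht b ∧ b.length ≤ B then Q (cyl b) * Xb b else 0) ≤
      (∑' b, if Block st ht b then Q (cyl b) - atomW atom a b else 0) * W +
      ∑' b, if Block st ht b ∧ b.length ≤ B then atomW atom a b * Xb b else 0 := by
  rw [← ENNReal.tsum_mul_right, ← ENNReal.tsum_add]
  refine ENNReal.tsum_le_tsum fun b => ?_
  by_cases hb : Block st ht b ∧ b.length ≤ B
  · simp only [if_pos hb, if_pos hb.1]
    have h1 : Q (cyl b) = (Q (cyl b) - atomW atom a b) + atomW atom a b :=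
      (tsub_add_cancel_of_le (atomW_le hinj hw b)).symm
    calc Q (cyl b) * Xb b = ((Q (cyl b) - atomW atom a b) + atomW atom a b) * Xb b := by rw [← h1]
      _ = (Q (cyl b) - atomW atom a b) * Xb b + atomW atom a b * Xb b := add_mul _ _ _
      _ ≤ _ := by
        refine add_le_add ?_ le_rfl
        exact mul_le_mul_right (hX b hb.1 hb.2) _
  · rw [if_neg hb]; exact zero_le

lemma atomic_sum_eq {atom : ι → List U} {H : ℕ → V → ℝ≥0∞}
    (hcard0 : (Fintype.card ι : ℝ≥0∞) ≠ 0)
    (hrec : ∀ s z, H (s + 1) z =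
      (Fintype.card ι : ℝ≥0∞)⁻¹ * ∑ ε, H s (z - disp st (atom ε))) (s B : ℕ) (z : V) :
    ∑ ε, upSum st ht Q (fun x => H s (z - disp st (atom ε) - x)) B =
      (Fintype.card ι : ℝ≥0∞) * upSum st ht Q (fun x => H (s + 1) (z - x)) B := by
  have hcardtop : (Fintype.card ι : ℝ≥0∞) ≠ ∞ := ENNReal.natCast_ne_top _
  simp only [upSum]
  rw [← Summable.tsum_finsetSum (fun _ _ => ENNReal.summable), ← ENNReal.tsum_mul_left]
  refine tsum_congr fun g => ?_
  by_cases hg : Up st ht g ∧ g.length ≤ B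
  · simp only [if_pos hg]
    have h5 : ∀ x : ℝ≥0∞, (Fintype.card ι : ℝ≥0∞) * ((Fintype.card ι : ℝ≥0∞)⁻¹ * x) = x := by
      intro x
      rw [← mul_assoc, ENNReal.mul_inv_cancel hcard0 hcardtop, one_mul]
    rw [← Finset.mul_sum, mul_left_comm (Fintype.card ι : ℝ≥0∞) (Q (cyl g)), hrec, h5]
    congr 1
    refine Finset.sum_congr rfl fun ε _ => ?_
    congr 1
    abel
  · simp [hg]

lemma atomic_part {atom : ι → List U} {a : ℝ≥0∞} {H : ℕ → V → ℝ≥0∞}
    (hcard0 : (Fintype.card ι : ℝ≥0∞) ≠ 0)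
    (hrec : ∀ s z, H (s + 1) z =
      (Fintype.card ι : ℝ≥0∞)⁻¹ * ∑ ε, H s (z - disp st (atom ε))) {s B : ℕ} {z : V} {W : ℝ≥0∞}
    (hih : B ≠ 0 → upSum st ht Q (fun x => H (s + 1) (z - x)) (B - 1) ≤ W) :
    (∑' b, if Block st ht b ∧ b.length ≤ B then atomW atom a b *
        upSum st ht Q (fun x => H s (z - disp st b - x)) (B - b.length) else 0) ≤
      (Fintype.card ι : ℝ≥0∞) * a * W := by
  by_cases hB : B = 0
  · have : ∀ b : List U, ¬ (Block st ht b ∧ b.length ≤ B) := by
      intro b hb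
      have := hb.1.length_pos
      omega
    simp [this]
  · let Z : ι → ℝ≥0∞ := fun ε =>
      upSum st ht Q (fun x => H s (z - disp st (atom ε) - x)) (B - 1)
    have h3 : ∀ b : List U, (if Block st ht b ∧ b.length ≤ B then atomW atom a b *
        upSum st ht Q (fun x => H s (z - disp st b - x)) (B - b.length) else 0) ≤
        ∑ ε, if b = atom ε then a * Z ε else 0 := by
      intro b
      by_cases hb : Block st ht b ∧ b.length ≤ B
      · rw [if_pos hb]
        simp only [atomW]
        rw [Finset.sum_mul]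
        refine Finset.sum_le_sum fun ε _ => ?_
        by_cases hbe : b = atom ε
        · subst hbe
          simp only [if_true]
          refine mul_le_mul_right (upSum_mono _ ?_) _
          have := hb.1.length_pos
          omega
        · simp [hbe]
      · rw [if_neg hb]; exact zero_le
    refine (ENNReal.tsum_le_tsum h3).trans ?_
    rw [Summable.tsum_finsetSum (fun _ _ => ENNReal.summable)]
    simp_rw [tsum_ite_eq]
    rw [← Finset.mul_sum]
    have h4 : ∑ ε, Z ε = (Fintype.card ι : ℝ≥0∞) *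
        upSum st ht Q (fun x => H (s + 1) (z - x)) (B - 1) :=
      atomic_sum_eq hcard0 hrec s (B - 1) z
    rw [h4]
    calc a * ((Fintype.card ι : ℝ≥0∞) * upSum st ht Q (fun x => H (s + 1) (z - x)) (B - 1))
        ≤ a * ((Fintype.card ι : ℝ≥0∞) * W) :=
          mul_le_mul_right (mul_le_mul_right (hih hB) _) _
      _ = _ := by ring

lemma upSum_sub_le (m : Model st Q) (hQ : Q (cyl []) ≤ 1) (G : V → ℝ≥0∞) (z : V) (B : ℕ) :
    upSum st ht Q (fun x => G (z - x)) B ≤ G z + ∑' b, if Block st ht b ∧ b.length ≤ B then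
      Q (cyl b) * upSum st ht Q (fun x => G (z - disp st b - x)) (B - b.length) else 0 := by
  have h0 := upSum_le (ht := ht) m hQ (fun x => G (z - x)) B
  have hfun : ∀ b : List U, (fun x => G (z - (x + disp st b))) = fun x => G (z - disp st b - x) := by
    intro b
    funext x
    congr 1
    abel
  simp only [hfun, sub_zero] at h0
  exact h0

variable [Nonempty ι]

lemma green_ind (m : Model st Q) (hQ : Q (cyl []) ≤ 1) (hmass : blockMass st ht Q ≤ 1)
    {atom : ι → List U} {a : ℝ≥0∞} (hinj : Function.Injective atom)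
    (hblock : ∀ ε, Block st ht (atom ε)) (hw : ∀ ε, a ≤ Q (cyl (atom ε))) (ha0 : a ≠ 0)
    (hatop : a ≠ ∞) {H : ℕ → V → ℝ≥0∞} {h : ℕ → ℝ≥0∞} (hH : ∀ s z, H s z ≤ h s)
    (hrec : ∀ s z, H (s + 1) z =
      (Fintype.card ι : ℝ≥0∞)⁻¹ * ∑ ε, H s (z - disp st (atom ε))) (B : ℕ) :
    ∀ s z, upSum st ht Q (fun x => H s (z - x)) B ≤
      ((Fintype.card ι : ℝ≥0∞) * a)⁻¹ * ∑' t, h (s + t) := by
  have hcard0 : (Fintype.card ι : ℝ≥0∞) ≠ 0 := by
    simp [Fintype.card_ne_zero]
  have hcardtop : (Fintype.card ι : ℝ≥0∞) ≠ ∞ := ENNReal.natCast_ne_top _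
  have hα0 : (Fintype.card ι : ℝ≥0∞) * a ≠ 0 := mul_ne_zero hcard0 ha0
  have hαtop : (Fintype.card ι : ℝ≥0∞) * a ≠ ∞ := ENNReal.mul_ne_top hcardtop hatop
  have hmass2 := mass_split (a := a) hmass hinj hblock hw
  generalize hαdef : (Fintype.card ι : ℝ≥0∞) * a = α at *
  induction B using Nat.strong_induction_on with
  | _ B ih =>
    intro s z
    have h0 := upSum_sub_le (ht := ht) m hQ (H s) z B
    have h1 := nonatomic_part (st := st) (ht := ht) (Q := Q) (a := a) (B := B)
      (Xb := fun b => upSum st ht Q (fun x => H s (z - disp st b - x)) (B - b.length))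
      (W := α⁻¹ * ∑' t, h (s + t)) hinj hw (fun b hb _ =>
        ih (B - b.length) (by have := hb.length_pos; omega) s (z - disp st b))
    have h2 := atomic_part (st := st) (ht := ht) (Q := Q) (a := a) (atom := atom) (s := s) (B := B) (z := z)
      (W := α⁻¹ * ∑' t, h (s + 1 + t)) hcard0 hrec
      (fun hB => ih (B - 1) (by omega) (s + 1) z)
    rw [hαdef] at h2
    have hstep := alpha_W_step h hα0 hαtop s
    generalize (∑' b, if Block st ht b then Q (cyl b) - atomW atom a b else 0) = μ at *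
    generalize α⁻¹ * ∑' t, h (s + t) = W0 at *
    generalize α⁻¹ * ∑' t, h (s + 1 + t) = W1 at *
    calc upSum st ht Q (fun x => H s (z - x)) B
        ≤ H s z + _ := h0
      _ ≤ h s + (μ * W0 + α * W1) := by
          refine add_le_add (hH s z) (h1.trans ?_)
          exact add_le_add le_rfl h2
      _ = μ * W0 + (h s + α * W1) := by ring
      _ = (μ + α) * W0 := by rw [← hstep]; ring
      _ ≤ 1 * W0 := mul_le_mul_left hmass2 _
      _ = W0 := one_mul _

end Vale.Agent.Lib.P147
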