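import Vale.Agent.Lib.P147.Occ

/-! # P147: first moment of intersections, choice of the offset -/

open MeasureTheory Set Filter Topology
open scoped ENNReal

noncomputable section

namespace Vale.Agent.Lib.P147

open scoped Classical

variable {U V : Type*} [AddCommGroup V] {st : U → V} {ht : V →+ ℤ}

/-- the transverse box -/
def box (R : ℕ) : Finset (ℕ × ℕ × ℕ) := Finset.range R ×ˢ Finset.range R ×ˢ Finset.range R

variable (st) in
/-- number of box points `o` with `o + y = x` -/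
def psiBox (E0 E1 E2 : U) (R : ℕ) (x y : V) : ℝ≥0∞ :=
  ∑ p ∈ box R, if tr st E0 E1 E2 p.1 p.2.1 p.2.2 + y = x then 1 else 0

variable (st) in
/-- the intersection-free condition for two lists -/
def Good (g f : List U) (o : V) : Prop :=
  ∀ t < f.length, o + pos st f t ≠ 0 ∧ ∀ r < g.length, o + pos st f t ≠ pos st g r - disp st g

lemma sum_not_good_le (E0 E1 E2 : U) (R : ℕ) (g f : List U) :
    (∑ p ∈ box R, if Good st g f (tr st E0 E1 E2 p.1 p.2.1 p.2.2) then (0 : ℝ≥0∞) else 1) ≤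
      ∑ t ∈ Finset.range f.length, psiBox st E0 E1 E2 R 0 (pos st f t) +
      ∑ r ∈ Finset.range g.length, ∑ t ∈ Finset.range f.length,
        psiBox st E0 E1 E2 R (pos st g r - disp st g) (pos st f t) := by
  unfold psiBox
  have h1 : ∀ p ∈ box R, (if Good st g f (tr st E0 E1 E2 p.1 p.2.1 p.2.2) then (0 : ℝ≥0∞) else 1) ≤
      ∑ t ∈ Finset.range f.length, (if tr st E0 E1 E2 p.1 p.2.1 p.2.2 + pos st f t = 0 then (1 : ℝ≥0∞) else 0) +
      ∑ r ∈ Finset.range g.length, ∑ t ∈ Finset.range f.length,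
        (if tr st E0 E1 E2 p.1 p.2.1 p.2.2 + pos st f t = pos st g r - disp st g then (1 : ℝ≥0∞) else 0) := by
    intro p _
    by_cases hg : Good st g f (tr st E0 E1 E2 p.1 p.2.1 p.2.2)
    · rw [if_pos hg]; exact zero_le
    · rw [if_neg hg]
      unfold Good at hg
      push Not at hg
      obtain ⟨t, ht', h2⟩ := hg
      by_cases h3 : tr st E0 E1 E2 p.1 p.2.1 p.2.2 + pos st f t = 0
      · refine le_trans ?_ le_self_add
        refine le_trans ?_ (Finset.single_le_sum (f := fun t =>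
          if tr st E0 E1 E2 p.1 p.2.1 p.2.2 + pos st f t = 0 then (1 : ℝ≥0∞) else 0)
          (fun _ _ => zero_le) (Finset.mem_range.2 ht'))
        simp [h3]
      · obtain ⟨r, hr, h4⟩ := h2 h3
        refine le_trans ?_ le_add_self
        refine le_trans ?_ (Finset.single_le_sum (f := fun r => ∑ t ∈ Finset.range f.length,
          (if tr st E0 E1 E2 p.1 p.2.1 p.2.2 + pos st f t = pos st g r - disp st g then (1 : ℝ≥0∞) else 0))
          (fun _ _ => zero_le) (Finset.mem_range.2 hr))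
        refine le_trans ?_ (Finset.single_le_sum (f := fun t =>
          (if tr st E0 E1 E2 p.1 p.2.1 p.2.2 + pos st f t = pos st g r - disp st g then (1 : ℝ≥0∞) else 0))
          (fun _ _ => zero_le) (Finset.mem_range.2 ht'))
        simp [h4]
  refine (Finset.sum_le_sum h1).trans (le_of_eq ?_)
  rw [Finset.sum_add_distrib]
  congr 1
  · rw [Finset.sum_comm]
  · rw [Finset.sum_comm]
    refine Finset.sum_congr rfl fun r _ => ?_
    rw [Finset.sum_comm]

variable [MeasurableSpace U] {Q : Measure (ℕ → U)}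

variable (st Q) in
/-- the sum over `Up` lists for `ht₂` of the occupation count of a translated box -/
def fSum (ht₂ : V →+ ℤ) (E0 E1 E2 : U) (R : ℕ) (T : ℤ) (x : V) : ℝ≥0∞ :=
  ∑' f, if Up st ht₂ f ∧ ht₂ (disp st f) = T then
    Q (cyl f) * ∑ t ∈ Finset.range f.length, psiBox st E0 E1 E2 R x (pos st f t) else 0

lemma tsum_psi_eq (ht₂ : V →+ ℤ) (E0 E1 E2 : U) (R : ℕ) (x y : V) :
    (∑' f, if Up st ht₂ f then Q (cyl f) * psiBox st E0 E1 E2 R x (disp st f + y) else 0) =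
      boxSum st Q ht₂ E0 E1 E2 R (x - y) := by
  unfold boxSum upG psiBox
  rw [← Summable.tsum_finsetSum (fun _ _ => ENNReal.summable)]
  refine tsum_congr fun f => ?_
  by_cases hf : Up st ht₂ f
  · simp only [hf, true_and, if_true]
    rw [Finset.mul_sum]
    refine Finset.sum_congr rfl fun p _ => ?_
    have h1 : (tr st E0 E1 E2 p.1 p.2.1 p.2.2 + (disp st f + y) = x) ↔
        (disp st f = x - y - tr st E0 E1 E2 p.1 p.2.1 p.2.2) := by
      constructor
      · intro h; rw [← h]; abel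
      · intro h; rw [h]; abel
    by_cases h2 : disp st f = x - y - tr st E0 E1 E2 p.1 p.2.1 p.2.2
    · rw [if_pos h2, if_pos (h1.2 h2), mul_one]
    · rw [if_neg h2, if_neg (fun h => h2 (h1.1 h)), mul_zero]
  · simp [hf]

variable [MeasurableSingletonClass U] [Countable U] [IsProbabilityMeasure Q]

lemma fSum_le (m : Model st Q) (ht₂ : V →+ ℤ) (E0 E1 E2 : U) (R : ℕ) (T : ℤ) (x : V) :
    fSum st Q ht₂ E0 E1 E2 R T x ≤ ∑' b, if Block st ht₂ b then
      Q (cyl b) * ∑ a ∈ Finset.range b.length, boxSum st Q ht₂ E0 E1 E2 R (x - pos st b a) else 0 := by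
  refine (occ_start (ht := ht₂) m T _).trans (le_of_eq ?_)
  refine tsum_congr fun b => ?_
  by_cases hb : Block st ht₂ b
  · simp only [if_pos hb]
    congr 1
    refine Finset.sum_congr rfl fun a _ => ?_
    exact tsum_psi_eq ht₂ E0 E1 E2 R x (pos st b a)
  · simp [hb]

omit [MeasurableSingletonClass U] [Countable U] [IsProbabilityMeasure Q] in
lemma tsum_block_const (ht₂ : V →+ ℤ) {b0 : List U → ℕ → ℝ≥0∞} {C : ℝ≥0∞}
    (h : ∀ b a, Block st ht₂ b → a < b.length → b0 b a ≤ C) :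
    (∑' b, if Block st ht₂ b then Q (cyl b) * ∑ a ∈ Finset.range b.length, b0 b a else 0) ≤
      blockMean st ht₂ Q * C := by
  unfold blockMean
  rw [← ENNReal.tsum_mul_right]
  refine ENNReal.tsum_le_tsum fun b => ?_
  by_cases hb : Block st ht₂ b
  · simp only [if_pos hb]
    rw [mul_assoc]
    refine mul_le_mul_right ?_ _
    calc ∑ a ∈ Finset.range b.length, b0 b a ≤ ∑ _a ∈ Finset.range b.length, C :=
          Finset.sum_le_sum fun a ha => h b a hb (Finset.mem_range.1 ha)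
      _ = _ := by simp
  · simp [hb]

/-- bound for the double sum against the Green sum -/
lemma double_sum_le (m : Model st Q) {ht₂ : V →+ ℤ} (E0 E1 E2 : U) (R : ℕ) (T : ℤ) {C : ℝ≥0∞}
    (hG : ∀ z : V, (∑' g, if Up st ht g then Q (cyl g) *
      boxSum st Q ht₂ E0 E1 E2 R (z - disp st g) else 0) ≤ C) (z : V) :
    (∑' g2, if Up st ht g2 then Q (cyl g2) * fSum st Q ht₂ E0 E1 E2 R T (z - disp st g2) else 0) ≤
      blockMean st ht₂ Q * C := by
  have h1 : ∀ g2 : List U, (if Up st ht g2 then Q (cyl g2) * fSum st Q ht₂ E0 E1 E2 R T (z - disp st g2) else 0) ≤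
      ∑' b, if Block st ht₂ b then Q (cyl b) * ∑ a ∈ Finset.range b.length,
        (if Up st ht g2 then Q (cyl g2) * boxSum st Q ht₂ E0 E1 E2 R (z - pos st b a - disp st g2) else 0)
      else 0 := by
    intro g2
    by_cases hg2 : Up st ht g2
    · simp only [if_pos hg2]
      refine (mul_le_mul_right (fSum_le m ht₂ E0 E1 E2 R T (z - disp st g2)) _).trans (le_of_eq ?_)
      rw [← ENNReal.tsum_mul_left]
      refine tsum_congr fun b => ?_
      by_cases hb : Block st ht₂ b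
      · simp only [if_pos hb]
        rw [mul_left_comm, Finset.mul_sum]
        congr 1
        refine Finset.sum_congr rfl fun a _ => ?_
        congr 2
        abel
      · simp [hb]
    · simp [hg2]
  refine (ENNReal.tsum_le_tsum h1).trans ?_
  rw [ENNReal.tsum_comm]
  refine le_trans (le_of_eq ?_) (tsum_block_const (Q := Q) ht₂
    (b0 := fun b a => ∑' g2, if Up st ht g2 then
      Q (cyl g2) * boxSum st Q ht₂ E0 E1 E2 R (z - pos st b a - disp st g2) else 0)
    (fun b a _ _ => hG (z - pos st b a)))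
  refine tsum_congr fun b => ?_
  by_cases hb : Block st ht₂ b
  · simp only [if_pos hb]
    rw [ENNReal.tsum_mul_left, Summable.tsum_finsetSum (fun _ _ => ENNReal.summable)]
  · simp [hb]

variable (st Q) in
/-- the mass of pairs of lists that are not intersection-free at the offset `o` -/
def badSum (ht ht₂ : V →+ ℤ) (T T' : ℤ) (o : V) : ℝ≥0∞ :=
  ∑' g, ∑' f, if (Up st ht g ∧ ht (disp st g) = T) ∧ (Up st ht₂ f ∧ ht₂ (disp st f) = T') ∧
    ¬ Good st g f o then Q (cyl g) * Q (cyl f) else 0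

lemma sum_badSum_le (E0 E1 E2 : U) (R : ℕ) (ht₂ : V →+ ℤ) (T T' : ℤ) :
    (∑ p ∈ box R, badSum st Q ht ht₂ T T' (tr st E0 E1 E2 p.1 p.2.1 p.2.2)) ≤
      ∑' g, if Up st ht g ∧ ht (disp st g) = T then Q (cyl g) *
        (fSum st Q ht₂ E0 E1 E2 R T' 0 +
          ∑ r ∈ Finset.range g.length, fSum st Q ht₂ E0 E1 E2 R T' (pos st g r - disp st g)) else 0 := by
  unfold badSum
  rw [← Summable.tsum_finsetSum (fun _ _ => ENNReal.summable)]
  refine ENNReal.tsum_le_tsum fun g => ?_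
  by_cases hg : Up st ht g ∧ ht (disp st g) = T
  · simp only [hg, true_and, and_self, if_true]
    rw [← Summable.tsum_finsetSum (fun _ _ => ENNReal.summable)]
    unfold fSum
    rw [← Summable.tsum_finsetSum (fun _ _ => ENNReal.summable), ← ENNReal.tsum_add,
      ← ENNReal.tsum_mul_left]
    refine ENNReal.tsum_le_tsum fun f => ?_
    by_cases hf : Up st ht₂ f ∧ ht₂ (disp st f) = T'
    · simp only [hf, true_and, and_self, if_true]
      have h1 := sum_not_good_le (st := st) E0 E1 E2 R g f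
      have h2 : ∀ p : ℕ × ℕ × ℕ, (if ¬ Good st g f (tr st E0 E1 E2 p.1 p.2.1 p.2.2) then
          Q (cyl g) * Q (cyl f) else 0) = Q (cyl g) * Q (cyl f) *
          (if Good st g f (tr st E0 E1 E2 p.1 p.2.1 p.2.2) then (0 : ℝ≥0∞) else 1) := by
        intro p
        by_cases h3 : Good st g f (tr st E0 E1 E2 p.1 p.2.1 p.2.2)
        · simp [h3]
        · simp [h3]
      simp_rw [h2]
      rw [← Finset.mul_sum]
      refine (mul_le_mul_right h1 _).trans (le_of_eq ?_)
      rw [← Finset.mul_sum]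
      ring
    · simp [hf]
  · simp [hg]

variable {Eu Ed E0 E1 E2 : U}

lemma fSum_le_mean (m : Model st Q) (ax : Axes st ht Eu Ed E0 E1 E2) {ht₂ : V →+ ℤ}
    (hh : ∀ x, ht₂ x = - ht x) (R : ℕ) (T : ℤ) (x : V) :
    fSum st Q ht₂ E0 E1 E2 R T x ≤ blockMean st ht₂ Q := by
  refine (fSum_le m ht₂ E0 E1 E2 R T x).trans ?_
  have := tsum_block_const (Q := Q) (st := st) ht₂
    (b0 := fun b a => boxSum st Q ht₂ E0 E1 E2 R (x - pos st b a)) (C := 1)
    (fun b a _ _ => boxSum_le_one ax hh R _)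
  simpa using this

lemma sum_badSum_bound (m : Model st Q) (ax : Axes st ht Eu Ed E0 E1 E2) {ht₂ : V →+ ℤ}
    (hh : ∀ x, ht₂ x = - ht x) (R : ℕ) (T T' : ℤ) {C : ℝ≥0∞}
    (hG : ∀ z : V, (∑' g, if Up st ht g then Q (cyl g) *
      boxSum st Q ht₂ E0 E1 E2 R (z - disp st g) else 0) ≤ C) :
    (∑ p ∈ box R, badSum st Q ht ht₂ T T' (tr st E0 E1 E2 p.1 p.2.1 p.2.2)) ≤
      blockMean st ht₂ Q + blockMean st ht Q * (blockMean st ht₂ Q * C) := by
  refine (sum_badSum_le E0 E1 E2 R ht₂ T T').trans ?_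
  have h1 : ∀ g : List U, (if Up st ht g ∧ ht (disp st g) = T then Q (cyl g) *
      (fSum st Q ht₂ E0 E1 E2 R T' 0 +
        ∑ r ∈ Finset.range g.length, fSum st Q ht₂ E0 E1 E2 R T' (pos st g r - disp st g)) else 0) =
      (if Up st ht g ∧ ht (disp st g) = T then Q (cyl g) else 0) * fSum st Q ht₂ E0 E1 E2 R T' 0 +
      (if Up st ht g ∧ ht (disp st g) = T then Q (cyl g) *
        ∑ r ∈ Finset.range g.length, fSum st Q ht₂ E0 E1 E2 R T' (pos st g r - disp st g) else 0) := by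
    intro g
    by_cases hg : Up st ht g ∧ ht (disp st g) = T
    · simp only [if_pos hg]
      rw [mul_add]
    · simp [hg]
  simp_rw [h1]
  rw [ENNReal.tsum_add, ENNReal.tsum_mul_right]
  refine add_le_add ?_ ?_
  · calc _ ≤ 1 * fSum st Q ht₂ E0 E1 E2 R T' 0 := mul_le_mul_left (up_mass_le_one T) _
      _ = _ := one_mul _
      _ ≤ _ := fSum_le_mean m ax hh R T' 0
  · refine (occ_up m T _).trans ?_
    exact tsum_block_const (Q := Q) (st := st) ht
      (b0 := fun b a => ∑' g2, if Up st ht g2 then Q (cyl g2) *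
        fSum st Q ht₂ E0 E1 E2 R T' (pos st b a - disp st b - disp st g2) else 0)
      (fun b a _ _ => double_sum_le m E0 E1 E2 R T' hG (pos st b a - disp st b))

/-- choice of a box size such that for every level some offset has small bad mass -/
lemma exists_offset (m : Model st Q) (ax : Axes st ht Eu Ed E0 E1 E2) {ht₂ : V →+ ℤ}
    (hh : ∀ x, ht₂ x = - ht x) (hmass : blockMass st ht Q ≤ 1)
    (hM1 : blockMean st ht Q ≠ ∞) (hM2 : blockMean st ht₂ Q ≠ ∞)
    {a : ℝ≥0∞} (ha0 : a ≠ 0) (hatop : a ≠ ∞) (hw : ∀ ε, a ≤ Q (cyl (atom Eu E0 E1 E2 ε)))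
    {c : ℝ≥0∞} (hc0 : c ≠ 0) :
    ∃ R : ℕ, ∀ T T' : ℤ, ∃ p ∈ box R, badSum st Q ht ht₂ T T' (tr st E0 E1 E2 p.1 p.2.1 p.2.2) ≤ c := by
  set M1 := blockMean st ht Q with hM1def
  set M2 := blockMean st ht₂ Q with hM2def
  have hc2 : c / 2 ≠ 0 := by simp [hc0]
  have hden : M1 * M2 + 1 ≠ ∞ := ENNReal.add_ne_top.2 ⟨ENNReal.mul_ne_top hM1 hM2, by norm_num⟩
  have hden0 : M1 * M2 + 1 ≠ 0 := by simp
  set ε := c / 2 / (M1 * M2 + 1) with hε
  have hε0 : ε ≠ 0 := by
    rw [hε]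
    exact (ENNReal.div_pos hc2 hden).ne'
  have hεle : M1 * (M2 * ε) ≤ c / 2 := by
    rw [← mul_assoc, hε]
    calc M1 * M2 * (c / 2 / (M1 * M2 + 1)) ≤ (M1 * M2 + 1) * (c / 2 / (M1 * M2 + 1)) :=
          mul_le_mul_left le_self_add _
      _ = c / 2 := ENNReal.mul_div_cancel hden0 hden
  obtain ⟨R0, hR0⟩ := green_bound (hh := hh) m hmass ax ha0 hatop hw hε0
  obtain ⟨R1, hR1⟩ := ENNReal.exists_nat_mul_gt hc2 hM2
  let R := max R0 R1 + 1
  have hRpos : 1 ≤ R := by omega
  refine ⟨R, fun T T' => ?_⟩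
  have hG := hR0 R (by omega)
  have hsum := sum_badSum_bound m ax hh R T T' hG
  have hR3 : (R1 : ℝ≥0∞) ≤ (R : ℝ≥0∞) ^ 3 := by
    have : R1 ≤ R ^ 3 := by
      calc R1 ≤ R := by omega
        _ = R ^ 1 := (pow_one R).symm
        _ ≤ R ^ 3 := Nat.pow_le_pow_right hRpos (by norm_num)
    exact_mod_cast this
  have hbound : (∑ p ∈ box R, badSum st Q ht ht₂ T T' (tr st E0 E1 E2 p.1 p.2.1 p.2.2)) ≤
      c * (R : ℝ≥0∞) ^ 3 := by
    refine hsum.trans ?_
    have h1 : M2 ≤ c / 2 * (R : ℝ≥0∞) ^ 3 := by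
      calc M2 ≤ R1 * (c / 2) := hR1.le
        _ ≤ (R : ℝ≥0∞) ^ 3 * (c / 2) := mul_le_mul_left hR3 _
        _ = _ := mul_comm _ _
    have h2 : M1 * (M2 * (ε * (R : ℝ≥0∞) ^ 3)) ≤ c / 2 * (R : ℝ≥0∞) ^ 3 := by
      calc _ = M1 * (M2 * ε) * (R : ℝ≥0∞) ^ 3 := by ring
        _ ≤ _ := mul_le_mul_left hεle _
    calc _ ≤ c / 2 * (R : ℝ≥0∞) ^ 3 + c / 2 * (R : ℝ≥0∞) ^ 3 := add_le_add h1 h2
      _ = _ := by rw [← add_mul, ENNReal.add_halves]
  by_contra hcon
  push Not at hcon
  have hne : (box R).Nonempty := ⟨(0, 0, 0), by simp [box]; omega⟩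
  have hlt := ENNReal.sum_lt_sum_of_nonempty hne (f := fun _ => c)
    (g := fun p : ℕ × ℕ × ℕ => badSum st Q ht ht₂ T T' (tr st E0 E1 E2 p.1 p.2.1 p.2.2))
    (fun p hp => hcon p hp)
  have hcard : ∑ _p ∈ box R, c = c * (R : ℝ≥0∞) ^ 3 := by
    simp [box, Finset.card_product]
    ring
  rw [hcard] at hlt
  exact absurd (hlt.trans_le hbound) (lt_irrefl _)

end Vale.Agent.Lib.P147
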