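import Vale.Agent.Lib.P147.GreenFinal

/-! # P147: occupation sums through the block decomposition -/

open MeasureTheory Set Filter Topology
open scoped ENNReal

noncomputable section

namespace Vale.Agent.Lib.P147

open scoped Classical

variable {U V : Type*} [AddCommGroup V] {st : U → V} {ht : V →+ ℤ}
variable [MeasurableSpace U] {Q : Measure (ℕ → U)}

lemma ite_mul_sum_range (P : Prop) [Decidable P] (c : ℝ≥0∞) (n : ℕ) (f : ℕ → ℝ≥0∞) :
    (if P then c * ∑ r ∈ Finset.range n, f r else 0) = ∑' r, if P ∧ r < n then c * f r else 0 := by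
  by_cases hP : P
  · simp only [hP, if_true, true_and]
    rw [tsum_eq_sum (s := Finset.range n), Finset.mul_sum]
    · refine Finset.sum_congr rfl fun r hr => ?_
      rw [if_pos (Finset.mem_range.1 hr)]
    · intro r hr
      rw [if_neg (by simpa using hr)]
  · simp [hP]

lemma occ_general (m : Model st Q) (T : ℤ) (Ξ : List U → ℕ → ℝ≥0∞) :
    (∑' g, if Up st ht g ∧ ht (disp st g) = T then
      Q (cyl g) * ∑ r ∈ Finset.range g.length, Ξ g r else 0) ≤
    ∑' p : List U × List U × List U, if Up st ht p.1 ∧ Block st ht p.2.1 ∧ Up st ht p.2.2 ∧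
        ht (disp st p.1) + ht (disp st p.2.1) + ht (disp st p.2.2) = T then
      Q (cyl p.1) * (Q (cyl p.2.1) * Q (cyl p.2.2)) *
        ∑ a ∈ Finset.range p.2.1.length, Ξ (p.1 ++ (p.2.1 ++ p.2.2)) (p.1.length + a) else 0 := by
  simp_rw [ite_mul_sum_range]
  rw [← ENNReal.tsum_prod (f := fun (g : List U) (r : ℕ) =>
      if (Up st ht g ∧ ht (disp st g) = T) ∧ r < g.length then Q (cyl g) * Ξ g r else 0)]
  rw [← ENNReal.tsum_prod (f := fun (p : List U × List U × List U) (a : ℕ) =>
      if (Up st ht p.1 ∧ Block st ht p.2.1 ∧ Up st ht p.2.2 ∧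
        ht (disp st p.1) + ht (disp st p.2.1) + ht (disp st p.2.2) = T) ∧ a < p.2.1.length then
      Q (cyl p.1) * (Q (cyl p.2.1) * Q (cyl p.2.2)) * Ξ (p.1 ++ (p.2.1 ++ p.2.2)) (p.1.length + a)
      else 0)]
  refine tsum_le_tsum_of_cover _ _
    (fun q : (List U × List U × List U) × ℕ =>
      ((q.1.1 ++ (q.1.2.1 ++ q.1.2.2) : List U), q.1.1.length + q.2)) ?_
  rintro ⟨g, r⟩ hne
  have hcond : (Up st ht g ∧ ht (disp st g) = T) ∧ r < g.length := by
    by_contra hc
    simp [hc] at hne
  obtain ⟨g1, b, g2, rfl, h1, h2, hg1, hb, hg2⟩ := exists_triple hcond.1.1 hcond.2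
  refine ⟨((g1, b, g2), r - g1.length), ?_, ?_⟩
  · simp only
    rw [Nat.add_sub_cancel' h1]
  · simp only
    rw [if_pos hcond]
    have ht2 : ht (disp st g1) + ht (disp st b) + ht (disp st g2) = T := by
      have := hcond.1.2
      simp only [disp_append, map_add] at this
      omega
    rw [if_pos ⟨⟨hg1, hb, hg2, ht2⟩, by omega⟩, m.triple hg1 hb.up hg2, Nat.add_sub_cancel' h1]

variable [MeasurableSingletonClass U] [Countable U] [IsProbabilityMeasure Q]

lemma sum_out_mass (x : ℤ) (c : ℝ≥0∞) (T : ℤ) :
    (∑' g, if Up st ht g ∧ ht (disp st g) + x = T then Q (cyl g) * c else 0) ≤ c := by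
  have h1 := up_mass_le_one (st := st) (ht := ht) (Q := Q) (T - x)
  have h2 : ∀ g : List U, (if Up st ht g ∧ ht (disp st g) + x = T then Q (cyl g) * c else 0) =
      (if Up st ht g ∧ ht (disp st g) = T - x then Q (cyl g) else 0) * c := by
    intro g
    have h3 : (ht (disp st g) + x = T) ↔ (ht (disp st g) = T - x) := by
      constructor <;> intro h <;> omega
    by_cases h4 : Up st ht g ∧ ht (disp st g) = T - x
    · rw [if_pos h4, if_pos ⟨h4.1, h3.2 h4.2⟩]
    · rw [if_neg h4, if_neg (fun h => h4 ⟨h.1, h3.1 h.2⟩), zero_mul]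
  simp_rw [h2]
  rw [ENNReal.tsum_mul_right]
  calc _ ≤ 1 * c := mul_le_mul_left h1 _
    _ = c := one_mul _

/-- occupation sums of an `Up` list seen from its end -/
lemma occ_up (m : Model st Q) (T : ℤ) (φ : V → ℝ≥0∞) :
    (∑' g, if Up st ht g ∧ ht (disp st g) = T then
      Q (cyl g) * ∑ r ∈ Finset.range g.length, φ (pos st g r - disp st g) else 0) ≤
    ∑' b, if Block st ht b then Q (cyl b) * ∑ a ∈ Finset.range b.length,
      ∑' g2, if Up st ht g2 then Q (cyl g2) * φ (pos st b a - disp st b - disp st g2) else 0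
    else 0 := by
  refine (occ_general m T _).trans ?_
  rw [ENNReal.tsum_prod']
  simp only [ENNReal.tsum_prod']
  rw [ENNReal.tsum_comm]
  refine ENNReal.tsum_le_tsum fun b => ?_
  rw [ENNReal.tsum_comm]
  -- for fixed `b`
  by_cases hb : Block st ht b
  · simp only [hb, true_and, if_true]
    rw [Finset.mul_sum]
    simp_rw [← ENNReal.tsum_mul_left]
    rw [← Summable.tsum_finsetSum (fun _ _ => ENNReal.summable)]
    refine ENNReal.tsum_le_tsum fun g2 => ?_
    by_cases hg2 : Up st ht g2
    · simp only [hg2, true_and, if_true]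
      set S := ∑ a ∈ Finset.range b.length,
        φ (pos st b a - disp st b - disp st g2) with hS
      have h1 : ∀ g1 : List U, (if Up st ht g1 ∧ ht (disp st g1) + ht (disp st b) + ht (disp st g2) = T then
          Q (cyl g1) * (Q (cyl b) * Q (cyl g2)) * ∑ a ∈ Finset.range b.length,
            φ (pos st (g1 ++ (b ++ g2)) (g1.length + a) - disp st (g1 ++ (b ++ g2))) else 0) =
          if Up st ht g1 ∧ ht (disp st g1) + (ht (disp st b) + ht (disp st g2)) = T then
            Q (cyl g1) * (Q (cyl b) * Q (cyl g2) * S) else 0 := by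
        intro g1
        have h2 : (ht (disp st g1) + ht (disp st b) + ht (disp st g2) = T) ↔
            (ht (disp st g1) + (ht (disp st b) + ht (disp st g2)) = T) := by
          rw [add_assoc]
        by_cases h3 : Up st ht g1 ∧ ht (disp st g1) + (ht (disp st b) + ht (disp st g2)) = T
        · rw [if_pos h3, if_pos ⟨h3.1, h2.2 h3.2⟩, mul_assoc]
          congr 2
          rw [hS]
          refine Finset.sum_congr rfl fun a ha => ?_
          have ha' : a ≤ b.length := (Finset.mem_range.1 ha).le
          rw [pos_append_add, pos_append_of_le st g2 ha']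
          congr 1
          simp only [disp_append]
          abel
        · rw [if_neg h3, if_neg (fun h => h3 ⟨h.1, h2.1 h.2⟩)]
      simp_rw [h1]
      refine (sum_out_mass (ht := ht) (Q := Q) _ _ T).trans (le_of_eq ?_)
      rw [hS, Finset.mul_sum]
      refine Finset.sum_congr rfl fun a _ => ?_
      ring
    · simp [hg2]
  · simp [hb]

/-- occupation sums of an `Up` list seen from its start -/
lemma occ_start (m : Model st Q) (T : ℤ) (ψ : V → ℝ≥0∞) :
    (∑' f, if Up st ht f ∧ ht (disp st f) = T then
      Q (cyl f) * ∑ r ∈ Finset.range f.length, ψ (pos st f r) else 0) ≤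
    ∑' b, if Block st ht b then Q (cyl b) * ∑ a ∈ Finset.range b.length,
      ∑' f1, if Up st ht f1 then Q (cyl f1) * ψ (disp st f1 + pos st b a) else 0
    else 0 := by
  refine (occ_general m T _).trans ?_
  rw [ENNReal.tsum_prod']
  simp only [ENNReal.tsum_prod']
  rw [ENNReal.tsum_comm]
  refine ENNReal.tsum_le_tsum fun b => ?_
  by_cases hb : Block st ht b
  · simp only [hb, true_and, if_true]
    rw [Finset.mul_sum]
    simp_rw [← ENNReal.tsum_mul_left]
    rw [← Summable.tsum_finsetSum (fun _ _ => ENNReal.summable)]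
    refine ENNReal.tsum_le_tsum fun f1 => ?_
    by_cases hf1 : Up st ht f1
    · simp only [hf1, true_and, if_true]
      set S := ∑ a ∈ Finset.range b.length, ψ (disp st f1 + pos st b a) with hS
      have h1 : ∀ f2 : List U, (if Up st ht f2 ∧ ht (disp st f1) + ht (disp st b) + ht (disp st f2) = T then
          Q (cyl f1) * (Q (cyl b) * Q (cyl f2)) * ∑ a ∈ Finset.range b.length,
            ψ (pos st (f1 ++ (b ++ f2)) (f1.length + a)) else 0) =
          if Up st ht f2 ∧ ht (disp st f2) + (ht (disp st f1) + ht (disp st b)) = T then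
            Q (cyl f2) * (Q (cyl b) * Q (cyl f1) * S) else 0 := by
        intro f2
        have h2 : (ht (disp st f1) + ht (disp st b) + ht (disp st f2) = T) ↔
            (ht (disp st f2) + (ht (disp st f1) + ht (disp st b)) = T) := by
          constructor <;> intro h <;> omega
        by_cases h3 : Up st ht f2 ∧ ht (disp st f2) + (ht (disp st f1) + ht (disp st b)) = T
        · rw [if_pos h3, if_pos ⟨h3.1, h2.2 h3.2⟩]
          have h4 : ∑ a ∈ Finset.range b.length, ψ (pos st (f1 ++ (b ++ f2)) (f1.length + a)) = S := by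
            rw [hS]
            refine Finset.sum_congr rfl fun a ha => ?_
            have ha' : a ≤ b.length := (Finset.mem_range.1 ha).le
            rw [pos_append_add, pos_append_of_le st f2 ha']
          rw [h4]
          ring
        · rw [if_neg h3, if_neg (fun h => h3 ⟨h.1, h2.1 h.2⟩)]
      simp_rw [h1]
      refine (sum_out_mass (ht := ht) (Q := Q) _ _ T).trans (le_of_eq ?_)
      rw [hS, Finset.mul_sum]
      refine Finset.sum_congr rfl fun a _ => ?_
      ring
    · simp [hf1]
  · simp [hb]

end Vale.Agent.Lib.P147
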