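import Vale.Agent.Lib.P147.Regen

/-! # P147: events on path space: finite-time events, the half-space events, block mass -/

open MeasureTheory Set Filter Topology
open scoped ENNReal

noncomputable section

namespace Vale.Agent.Lib.P147

open scoped Classical

variable {U V : Type*} [AddCommGroup V] {st : U → V} {ht : V →+ ℤ}
variable [MeasurableSpace U] [MeasurableSingletonClass U] [Countable U]
variable {Q : Measure (ℕ → U)}

lemma tsum_measure_eq {ι : Type*} [Countable ι] (P : ι → Prop) [DecidablePred P]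
    (E : ι → Set (ℕ → U))
    (hE : ∀ i, P i → MeasurableSet (E i))
    (hd : ∀ i j, P i → P j → i ≠ j → Disjoint (E i) (E j)) :
    (∑' i, if P i then Q (E i) else 0) = Q (⋃ i, ⋃ _ : P i, E i) := by
  let E' : ι → Set (ℕ → U) := fun i => if P i then E i else ∅
  have h1 : (⋃ i, ⋃ _ : P i, E i) = ⋃ i, E' i := by
    ext s
    simp only [mem_iUnion, E']
    constructor
    · rintro ⟨i, hi, hs⟩; exact ⟨i, by simpa [hi] using hs⟩
    · rintro ⟨i, hs⟩
      by_cases hi : P i
      · exact ⟨i, hi, by simpa [hi] using hs⟩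
      · simp [hi] at hs
  have h2 : ∀ i, (if P i then Q (E i) else 0) = Q (E' i) := by
    intro i
    by_cases hi : P i <;> simp [E', hi]
  simp_rw [h2]
  rw [h1, measure_iUnion]
  · intro i j hij
    show Disjoint (E' i) (E' j)
    by_cases hi : P i
    · by_cases hj : P j
      · simpa [E', hi, hj] using hd i j hi hj hij
      · simp [E', hj]
    · simp [E', hi]
  · intro i
    by_cases hi : P i
    · simpa [E', hi] using hE i hi
    · simp [E', hi]

lemma tsum_measure_le {ι : Type*} [Countable ι] (P : ι → Prop) [DecidablePred P]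
    (E : ι → Set (ℕ → U)) (S : Set (ℕ → U))
    (hE : ∀ i, P i → MeasurableSet (E i))
    (hd : ∀ i j, P i → P j → i ≠ j → Disjoint (E i) (E j)) (hS : ∀ i, P i → E i ⊆ S) :
    (∑' i, if P i then Q (E i) else 0) ≤ Q S := by
  rw [tsum_measure_eq P E hE hd]
  apply measure_mono
  simp only [iUnion_subset_iff]
  exact hS

lemma measure_le_tsum_of_cover {ι : Type*} [Countable ι] (P : ι → Prop) [DecidablePred P]
    (E : ι → Set (ℕ → U))
    (S : Set (ℕ → U)) (hS : ∀ s ∈ S, ∃ i, P i ∧ s ∈ E i) :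
    Q S ≤ ∑' i, if P i then Q (E i) else 0 := by
  let E' : ι → Set (ℕ → U) := fun i => if P i then E i else ∅
  have h2 : ∀ i, (if P i then Q (E i) else 0) = Q (E' i) := by
    intro i
    by_cases hi : P i <;> simp [E', hi]
  simp_rw [h2]
  refine le_trans (measure_mono ?_) (measure_iUnion_le E')
  intro s hs
  obtain ⟨i, hi, hs'⟩ := hS s hs
  exact mem_iUnion.2 ⟨i, by simpa [E', hi] using hs'⟩

/-- the finite-time event seen after a list `Γ` -/
lemma measure_cyl_inter_pre (Γ : List U) (n : ℕ) (L : List U → Prop) :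
    Q (cyl Γ ∩ shift Γ.length ⁻¹' {s | L (pre s n)}) =
      ∑' l, if L l ∧ l.length = n then Q (cyl (Γ ++ l)) else 0 := by
  rw [tsum_measure_eq (fun l : List U => L l ∧ l.length = n) (fun l => cyl (Γ ++ l))
    (fun l _ => measurableSet_cyl _)]
  · congr 1
    ext s
    simp only [mem_inter_iff, mem_preimage, mem_setOf_eq, mem_iUnion, mem_cyl_append, exists_prop]
    constructor
    · rintro ⟨h1, h2⟩
      refine ⟨pre (shift Γ.length s) n, ⟨h2, by simp⟩, h1, ?_⟩
      exact mem_cyl_pre _ _ |>.trans (by simp)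
    · rintro ⟨l, ⟨h1, h2⟩, h3, h4⟩
      refine ⟨h3, ?_⟩
      have : pre (shift Γ.length s) n = l := by
        have h5 : pre (shift Γ.length s) l.length = l := h4
        rw [h2] at h5
        exact h5
      rw [this]; exact h1
  · intro l l' ⟨_, hl⟩ ⟨_, hl'⟩ hne
    rw [Set.disjoint_left]
    intro s hs hs'
    rw [mem_cyl_append] at hs hs'
    apply hne
    have h1 : pre (shift Γ.length s) l.length = l := hs.2
    have h2 : pre (shift Γ.length s) l'.length = l' := hs'.2
    rw [hl] at h1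
    rw [hl'] at h2
    rw [← h1, ← h2]

lemma measure_pre (n : ℕ) (L : List U → Prop) :
    Q {s | L (pre s n)} = ∑' l, if L l ∧ l.length = n then Q (cyl l) else 0 := by
  have := measure_cyl_inter_pre (Q := Q) [] n L
  simpa using this

lemma measurable_cyl_inter (Γ : List U) {E : Set (ℕ → U)} (hE : MeasurableSet E) :
    MeasurableSet (cyl Γ ∩ shift Γ.length ⁻¹' E) :=
  (measurableSet_cyl Γ).inter (measurable_shift _ hE)

variable [IsProbabilityMeasure Q]

/-- the annealed inequality passes to decreasing limits of finite-time events -/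
lemma cyl_inter_iInter_le (m : Model st Q) (Γ : List U) (L : ℕ → List U → Prop)
    (hanti : Antitone fun n => {s : ℕ → U | L n (pre s n)}) :
    Q (cyl Γ ∩ shift Γ.length ⁻¹' ⋂ n, {s : ℕ → U | L n (pre s n)}) ≤
      Q (⋂ n, {s : ℕ → U | L n (pre s n)}) := by
  have hmeas : ∀ n, MeasurableSet {s : ℕ → U | L n (pre s n)} :=
    fun n => measurableSet_pre_mem n (L n)
  have h1 : Tendsto (Q ∘ fun n => {s : ℕ → U | L n (pre s n)}) atTop
      (𝓝 (Q (⋂ n, {s : ℕ → U | L n (pre s n)}))) :=
    tendsto_measure_iInter_atTop (fun n => (hmeas n).nullMeasurableSet) hanti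
      ⟨0, measure_ne_top _ _⟩
  have hanti2 : Antitone fun n => cyl Γ ∩ shift Γ.length ⁻¹' {s : ℕ → U | L n (pre s n)} := by
    intro a b hab s hs
    exact ⟨hs.1, hanti hab hs.2⟩
  have h2 := tendsto_measure_iInter_atTop (μ := Q)
    (fun n => (measurable_cyl_inter Γ (hmeas n)).nullMeasurableSet) hanti2 ⟨0, measure_ne_top _ _⟩
  have heq : (⋂ n, cyl Γ ∩ shift Γ.length ⁻¹' {s : ℕ → U | L n (pre s n)}) =
      cyl Γ ∩ shift Γ.length ⁻¹' ⋂ n, {s : ℕ → U | L n (pre s n)} := by
    ext s
    simp only [mem_iInter, mem_inter_iff, mem_preimage]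
    exact ⟨fun h => ⟨(h 0).1, fun n => (h n).2⟩, fun h n => ⟨h.1, h.2 n⟩⟩
  rw [heq] at h2
  refine le_of_tendsto_of_tendsto' h2 h1 fun n => ?_
  simp only [Function.comp]
  rw [measure_cyl_inter_pre, measure_pre]
  refine ENNReal.tsum_le_tsum fun l => ?_
  split_ifs
  · exact m.w2 Γ l
  · exact le_rfl

/-- factorisation on decreasing limits of finite-time events avoiding the exits of `Γ` -/
lemma cyl_inter_iInter_eq (Γ : List U) (L : ℕ → List U → Prop)
    (hanti : Antitone fun n => {s : ℕ → U | L n (pre s n)})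
    (hfresh : ∀ n l, L n l → l.length = n → Q (cyl (Γ ++ l)) = Q (cyl Γ) * Q (cyl l)) :
    Q (cyl Γ ∩ shift Γ.length ⁻¹' ⋂ n, {s : ℕ → U | L n (pre s n)}) =
      Q (cyl Γ) * Q (⋂ n, {s : ℕ → U | L n (pre s n)}) := by
  have hmeas : ∀ n, MeasurableSet {s : ℕ → U | L n (pre s n)} :=
    fun n => measurableSet_pre_mem n (L n)
  have h1 : Tendsto (Q ∘ fun n => {s : ℕ → U | L n (pre s n)}) atTop
      (𝓝 (Q (⋂ n, {s : ℕ → U | L n (pre s n)}))) :=
    tendsto_measure_iInter_atTop (fun n => (hmeas n).nullMeasurableSet) hanti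
      ⟨0, measure_ne_top _ _⟩
  have hanti2 : Antitone fun n => cyl Γ ∩ shift Γ.length ⁻¹' {s : ℕ → U | L n (pre s n)} := by
    intro a b hab s hs
    exact ⟨hs.1, hanti hab hs.2⟩
  have h2 := tendsto_measure_iInter_atTop (μ := Q)
    (fun n => (measurable_cyl_inter Γ (hmeas n)).nullMeasurableSet) hanti2 ⟨0, measure_ne_top _ _⟩
  have heq : (⋂ n, cyl Γ ∩ shift Γ.length ⁻¹' {s : ℕ → U | L n (pre s n)}) =
      cyl Γ ∩ shift Γ.length ⁻¹' ⋂ n, {s : ℕ → U | L n (pre s n)} := by
    ext s
    simp only [mem_iInter, mem_inter_iff, mem_preimage]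
    exact ⟨fun h => ⟨(h 0).1, fun n => (h n).2⟩, fun h n => ⟨h.1, h.2 n⟩⟩
  rw [heq] at h2
  have h3 : Tendsto (fun n => Q (cyl Γ) * Q {s : ℕ → U | L n (pre s n)}) atTop
      (𝓝 (Q (cyl Γ) * Q (⋂ n, {s : ℕ → U | L n (pre s n)}))) :=
    ENNReal.Tendsto.const_mul h1 (Or.inr (measure_ne_top _ _))
  refine tendsto_nhds_unique (h2.congr fun n => ?_) h3
  simp only [Function.comp]
  rw [measure_cyl_inter_pre, measure_pre, ← ENNReal.tsum_mul_left]
  refine tsum_congr fun l => ?_
  split_ifs with hl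
  · exact hfresh n l hl.1 hl.2
  · simp

variable (st ht) in
/-- paths with non-negative levels and speed at least `1/k` from time `k` on -/
def Dk (k : ℕ) : Set (ℕ → U) :=
  {s | ∀ m, 0 ≤ lvS st ht s m ∧ (k ≤ m → (m : ℤ) ≤ k * lvS st ht s m)}

variable (st ht) in
/-- the finite-time approximation of `Dk` -/
def DkL (k n : ℕ) (l : List U) : Prop :=
  ∀ m ≤ n, 0 ≤ lvl st ht l m ∧ (k ≤ m → (m : ℤ) ≤ k * lvl st ht l m)

lemma lvl_pre_of_le (s : ℕ → U) {m n : ℕ} (h : m ≤ n) :
    lvl st ht (pre s n) m = lvS st ht s m := by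
  rw [lvl_pre, min_eq_left h]

lemma DkL_pre_iff (k n : ℕ) (s : ℕ → U) :
    DkL st ht k n (pre s n) ↔ ∀ m ≤ n, 0 ≤ lvS st ht s m ∧ (k ≤ m → (m : ℤ) ≤ k * lvS st ht s m) := by
  unfold DkL
  refine forall₂_congr fun m hm => ?_
  rw [lvl_pre_of_le s hm]

lemma Dk_eq_iInter (k : ℕ) :
    Dk st ht k = ⋂ n, {s : ℕ → U | DkL st ht k n (pre s n)} := by
  ext s
  simp only [Dk, mem_setOf_eq, mem_iInter, DkL_pre_iff]
  exact ⟨fun h n m _ => h m, fun h m => h m m le_rfl⟩

lemma DkL_antitone (k : ℕ) : Antitone fun n => {s : ℕ → U | DkL st ht k n (pre s n)} := by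
  intro a b hab s hs
  simp only [mem_setOf_eq, DkL_pre_iff] at hs ⊢
  exact fun m hm => hs m (hm.trans hab)

lemma measurableSet_Dk (k : ℕ) : MeasurableSet (Dk st ht k : Set (ℕ → U)) := by
  rw [Dk_eq_iInter]
  exact MeasurableSet.iInter fun n => measurableSet_pre_mem n _

lemma Dk_mono : Monotone (Dk st ht : ℕ → Set (ℕ → U)) := by
  intro k k' hk s hs m
  refine ⟨(hs m).1, fun hm => ?_⟩
  have h1 := (hs m).2 (hk.trans hm)
  have h2 := (hs m).1
  have h3 : (k : ℤ) ≤ k' := by exact_mod_cast hk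
  nlinarith

/-- annealed inequality for `Dk` -/
lemma cyl_inter_Dk_le (m : Model st Q) (Γ : List U) (k : ℕ) :
    Q (cyl Γ ∩ shift Γ.length ⁻¹' Dk st ht k) ≤ Q (Dk st ht k) := by
  rw [Dk_eq_iInter]
  exact cyl_inter_iInter_le m Γ _ (DkL_antitone k)

/-- factorisation for `Dk` after a list whose exits lie below its end -/
lemma cyl_inter_Dk_eq (m : Model st Q) {Γ : List U}
    (hΓ : ∀ a < Γ.length, ht (pos st Γ a) < ht (disp st Γ)) (k : ℕ) :
    Q (cyl Γ ∩ shift Γ.length ⁻¹' Dk st ht k) = Q (cyl Γ) * Q (Dk st ht k) := by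
  rw [Dk_eq_iInter]
  refine cyl_inter_iInter_eq Γ _ (DkL_antitone k) fun n l hl hlen => ?_
  refine m.split (ht := ht) hΓ fun b => ?_
  by_cases hb : b ≤ n
  · exact (hl b hb).1
  · have h1 : pos st l b = pos st l n := by
      rw [pos_of_length_le st (by omega), pos_of_length_le st (by omega)]
    have := (hl n le_rfl).1
    simp only [lvl] at this
    rw [h1]; exact this

variable (st ht) in
/-- all paths with non-negative levels and positive speed -/
def Dinf : Set (ℕ → U) := ⋃ k, Dk st ht k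

lemma measurableSet_Dinf : MeasurableSet (Dinf st ht : Set (ℕ → U)) :=
  MeasurableSet.iUnion fun k => measurableSet_Dk k

lemma cyl_inter_Dinf_eq (m : Model st Q) {Γ : List U}
    (hΓ : ∀ a < Γ.length, ht (pos st Γ a) < ht (disp st Γ)) :
    Q (cyl Γ ∩ shift Γ.length ⁻¹' Dinf st ht) = Q (cyl Γ) * Q (Dinf st ht) := by
  have h1 : cyl Γ ∩ shift Γ.length ⁻¹' Dinf st ht =
      ⋃ k, cyl Γ ∩ shift Γ.length ⁻¹' Dk st ht k := by
    ext s
    simp [Dinf]
  have hmono : Monotone fun k => cyl Γ ∩ shift Γ.length ⁻¹' Dk st ht k := by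
    intro a b hab s hs
    exact ⟨hs.1, Dk_mono hab hs.2⟩
  rw [h1, hmono.measure_iUnion, Dinf, Dk_mono.measure_iUnion, ENNReal.mul_iSup]
  exact iSup_congr fun k => cyl_inter_Dk_eq m hΓ k

/-- a path following an `Up` list and then a path of `Dk k` is in a `Dk` -/
lemma mem_Dk_of_append {b : List U} (hb : Up st ht b) {s : ℕ → U} (h1 : s ∈ cyl b) {k : ℕ}
    (h2 : shift b.length s ∈ Dk st ht k) : s ∈ Dk st ht (2 * b.length + 2 * k) := by
  have hadd : ∀ t, lvS st ht s (b.length + t) =
      ht (disp st b) + lvS st ht (shift b.length s) t := by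
    intro t
    rw [lvS_add]
    congr 1
    simp only [lvS]
    rw [X_of_mem_cyl st h1]
  have hd := hb.disp_nonneg
  have hnn : ∀ m, 0 ≤ lvS st ht s m := by
    intro m
    by_cases hm : m ≤ b.length
    · have : lvS st ht s m = lvl st ht b m := by
        simp only [lvS, lvl]; rw [X_of_mem_cyl_of_le st h1 hm]
      rw [this]; exact hb.nonneg m
    · obtain ⟨t, rfl⟩ : ∃ t, m = b.length + t := ⟨m - b.length, by omega⟩
      rw [hadd]
      have := (h2 t).1
      omega
  intro m
  refine ⟨hnn m, fun hm => ?_⟩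
  obtain ⟨t, rfl⟩ : ∃ t, m = b.length + t := ⟨m - b.length, by omega⟩
  have h3 := (h2 t).2 (by omega)
  have h4 := hadd t
  have h5 := hnn (b.length + t)
  have h6 : (0 : ℤ) ≤ k := by positivity
  have h7 : ((b.length + t : ℕ) : ℤ) ≤ 2 * t := by
    push_cast
    omega
  have h8 : (k : ℤ) * lvS st ht (shift b.length s) t ≤ k * lvS st ht s (b.length + t) := by
    rw [h4]; nlinarith
  push_cast at h7 ⊢
  nlinarith

/-- distinct blocks give disjoint half-space events -/
lemma block_disjoint {b b' : List U} (hb : Block st ht b) (hb' : Block st ht b') (hne : b ≠ b') :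
    Disjoint (cyl b ∩ shift b.length ⁻¹' Dinf st ht) (cyl b' ∩ shift b'.length ⁻¹' Dinf st ht) := by
  have key : ∀ {b b' : List U}, Block st ht b → Block st ht b' → b.length ≤ b'.length →
      ∀ s, s ∈ cyl b ∩ shift b.length ⁻¹' Dinf st ht → s ∈ cyl b' → b = b' := by
    intro b b' hb hb' hle s hs hs'
    have ht1 := eq_take_of_mem_cyl hs.1 hs' hle
    by_contra hne
    have hlt : b.length < b'.length := by
      rcases lt_or_eq_of_le hle with h | h
      · exact h
      · exfalso
        apply hne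
        rw [h, List.take_of_length_le le_rfl] at ht1
        exact ht1.symm
    have hs'' : pre s b'.length = b' := hs'
    have hlv : ∀ a, lvl st ht b' a = lvS st ht s (min a b'.length) := by
      intro a
      conv_lhs => rw [← hs'']
      rw [lvl_pre]
    have hlb : ∀ a, a ≤ b.length → lvS st ht s a = lvl st ht b a := by
      intro a ha
      simp only [lvS, lvl]; rw [X_of_mem_cyl_of_le st hs.1 ha]
    obtain ⟨k, hk⟩ := mem_iUnion.1 hs.2
    refine hb'.2.2 b.length hb.length_pos hlt ⟨hle, fun a ha => ?_, fun a ha => ?_⟩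
    · rw [hlv, hlv, min_eq_left (by omega), min_eq_left hle, hlb a ha.le, hlb _ le_rfl, lvl_length]
      exact hb.up.lt_end ha
    · rw [hlv, hlv, min_eq_left hle]
      obtain ⟨t, ht'⟩ : ∃ t, min a b'.length = b.length + t :=
        ⟨min a b'.length - b.length, by omega⟩
      rw [ht', lvS_add]
      have := (hk t).1
      omega
  rw [Set.disjoint_left]
  intro s hs hs'
  rcases le_total b.length b'.length with hle | hle
  · exact hne (key hb hb' hle s hs hs'.1)
  · exact hne (key hb' hb hle s hs' hs.1).symm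

/-- total mass of blocks is at most one -/
lemma block_mass_le_one (m : Model st Q) (hD : Q (Dinf st ht) ≠ 0) :
    (∑' b, if Block st ht b then Q (cyl b) else 0) ≤ 1 := by
  have h1 := tsum_measure_le (Q := Q) (Block st ht)
    (fun b => cyl b ∩ shift b.length ⁻¹' Dinf st ht) (Dinf st ht)
    (fun b _ => measurable_cyl_inter b measurableSet_Dinf)
    (fun b b' hb hb' hne => block_disjoint hb hb' hne)
    (fun b hb s hs => by
      obtain ⟨k, hk⟩ := mem_iUnion.1 hs.2
      exact mem_iUnion.2 ⟨_, mem_Dk_of_append hb.up hs.1 hk⟩)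
  have h2 : ∀ b, (if Block st ht b then Q (cyl b ∩ shift b.length ⁻¹' Dinf st ht) else 0) =
      (if Block st ht b then Q (cyl b) else 0) * Q (Dinf st ht) := by
    intro b
    split_ifs with hb
    · exact cyl_inter_Dinf_eq m (fun a ha => hb.up.lt_end ha)
    · simp
  simp_rw [h2] at h1
  rw [ENNReal.tsum_mul_right] at h1
  have hne : Q (Dinf st ht) ≠ ∞ := measure_ne_top _ _
  calc _ = (∑' b, if Block st ht b then Q (cyl b) else 0) * (Q (Dinf st ht) * (Q (Dinf st ht))⁻¹) := by
        rw [ENNReal.mul_inv_cancel hD hne, mul_one]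
    _ = ((∑' b, if Block st ht b then Q (cyl b) else 0) * Q (Dinf st ht)) * (Q (Dinf st ht))⁻¹ := by
        rw [mul_assoc]
    _ ≤ Q (Dinf st ht) * (Q (Dinf st ht))⁻¹ := by gcongr
    _ = 1 := ENNReal.mul_inv_cancel hD hne

/-- positive speed yields a half-space event of positive measure -/
lemma exists_Dk_pos (m : Model st Q)
    (h : 0 < Q {s : ℕ → U | ∃ δ : ℝ, 0 < δ ∧ ∃ N : ℕ, ∀ n ≥ N, δ * n ≤ (lvS st ht s n : ℝ)}) :
    ∃ k, 0 < k ∧ 0 < Q (Dk st ht k) := by
  by_contra hcon
  push Not at hcon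
  have hzero : ∀ k, Q (Dk st ht k) = 0 := by
    intro k
    rcases Nat.eq_zero_or_pos k with rfl | hk
    · -- `k = 0`: empty event
      have : (Dk st ht 0 : Set (ℕ → U)) = ∅ := by
        ext s
        simp only [mem_empty_iff_false, iff_false]
        intro hs
        have := (hs 1).2 (by omega)
        simp at this
      rw [this]; simp
    · exact le_antisymm (hcon k hk) bot_le
  have hcover : {s : ℕ → U | ∃ δ : ℝ, 0 < δ ∧ ∃ N : ℕ, ∀ n ≥ N, δ * n ≤ (lvS st ht s n : ℝ)} ⊆
      ⋃ k, ⋃ g : List U, cyl g ∩ shift g.length ⁻¹' Dk st ht k := by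
    rintro s ⟨δ, hδ, N, hN⟩
    obtain ⟨k0, hk0⟩ := exists_nat_gt (1 / δ)
    let k := max N k0 + 1
    have hkN : N ≤ k := by omega
    have hk1 : 1 ≤ k := by omega
    have hkr : (k0 : ℝ) ≤ k := by
      have : k0 ≤ k := by omega
      exact_mod_cast this
    have hkδ : 1 ≤ (k : ℝ) * δ := by
      have h1 : 1 / δ < k := lt_of_lt_of_le hk0 hkr
      rw [div_lt_iff₀ hδ] at h1
      exact h1.le
    have hspeed : ∀ n ≥ k, (n : ℤ) ≤ k * lvS st ht s n := by
      intro n hn
      have h1 := hN n (by omega)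
      have h2 : (n : ℝ) ≤ k * (lvS st ht s n : ℝ) := by
        have hn0 : (0 : ℝ) ≤ n := by positivity
        have hk0' : (0 : ℝ) ≤ k := by positivity
        nlinarith [mul_le_mul_of_nonneg_left h1 hk0', mul_le_mul_of_nonneg_right hkδ hn0]
      exact_mod_cast h2
    obtain ⟨n0, hn0, hmin⟩ := Finset.exists_min_image (Finset.range (k + 1)) (lvS st ht s)
      ⟨0, by simp⟩
    have hn0le : n0 ≤ k := by simpa [Nat.lt_succ_iff] using hn0
    have hn0neg : lvS st ht s n0 ≤ 0 := by
      have := hmin 0 (by simp)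
      simpa using this
    have hminall : ∀ n, lvS st ht s n0 ≤ lvS st ht s n := by
      intro n
      by_cases hn : n ≤ k
      · exact hmin n (by simp; omega)
      · have h1 := hspeed n (by omega)
        have h2 : (0 : ℤ) < k := by exact_mod_cast hk1
        have h3 : (1 : ℤ) ≤ n := by
          have : 1 ≤ n := by omega
          exact_mod_cast this
        have h4 : 0 < lvS st ht s n := by
          by_contra h5
          push Not at h5
          nlinarith
        omega
    refine mem_iUnion.2 ⟨k, mem_iUnion.2 ⟨pre s n0, mem_cyl_pre s n0, ?_⟩⟩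
    rw [length_pre]
    intro m'
    have hadd := lvS_add (st := st) (ht := ht) s n0 m'
    refine ⟨?_, fun hm' => ?_⟩
    · have := hminall (n0 + m')
      omega
    · have h1 := hspeed (n0 + m') (by omega)
      have h2 : (0 : ℤ) ≤ k := by positivity
      have h3 : lvS st ht (shift n0 s) m' = lvS st ht s (n0 + m') - lvS st ht s n0 := by omega
      rw [h3]
      have h4 : (0 : ℤ) ≤ n0 := by positivity
      push_cast at h1
      nlinarith
  have hnull : Q (⋃ k, ⋃ g : List U, cyl g ∩ shift g.length ⁻¹' Dk st ht k) = 0 := by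
    refine measure_iUnion_null fun k => measure_iUnion_null fun g => ?_
    exact le_antisymm ((cyl_inter_Dk_le m g k).trans (hzero k).le) bot_le
  exact absurd (measure_mono_null hcover hnull) h.ne'

omit [IsProbabilityMeasure Q] in
lemma measure_Dinf_pos_of_Dk {k : ℕ} (h : 0 < Q (Dk st ht k)) : Q (Dinf st ht) ≠ 0 := by
  have : Q (Dk st ht k) ≤ Q (Dinf st ht) := measure_mono (subset_iUnion _ k)
  exact (lt_of_lt_of_le h this).ne'

/-- the `Up` lists with given final level have mass at most one -/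
lemma up_mass_le_one (T : ℤ) :
    (∑' g, if Up st ht g ∧ ht (disp st g) = T then Q (cyl g) else 0) ≤ 1 := by
  have h := tsum_measure_le (Q := Q) (fun g : List U => Up st ht g ∧ ht (disp st g) = T)
    cyl univ (fun g _ => measurableSet_cyl g)
    (fun g g' hg hg' hne => by
      rw [Set.disjoint_left]
      intro s hs hs'
      exact hne (up_eq_of_mem_cyl hg.1 hg'.1 (hg.2.trans hg'.2.symm) hs hs'))
    (fun _ _ => subset_univ _)
  simpa using h

/-- lower bound for the mass of `Up` lists of bounded length -/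
lemma Dk_le_up_mass (hstep : ∀ e, ht (st e) ≤ 1) {k : ℕ} (hk : 0 < k) {T : ℕ} (hT : 1 ≤ T) {B : ℕ}
    (hB : k * T ≤ B) :
    Q (Dk st ht k) ≤ ∑' g, if Up st ht g ∧ ht (disp st g) = T ∧ g.length ≤ B then Q (cyl g) else 0 := by
  refine measure_le_tsum_of_cover
    (fun g : List U => Up st ht g ∧ ht (disp st g) = T ∧ g.length ≤ B) cyl _ fun s hs => ?_
  have hkT : k ≤ k * T := Nat.le_mul_of_pos_right k hT
  have h1 := (hs (k * T)).2 hkT
  have h2 : (T : ℤ) ≤ lvS st ht s (k * T) := by
    push_cast at h1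
    have h3 : (0 : ℤ) < k := by exact_mod_cast hk
    exact le_of_mul_le_mul_left h1 h3
  obtain ⟨τ, hτ, hup, hlev⟩ := exists_first_arrival hstep (fun m => (hs m).1)
    (by positivity : (0 : ℤ) ≤ T) h2
  refine ⟨pre s τ, ⟨hup, hlev, ?_⟩, mem_cyl_pre s τ⟩
  rw [length_pre]; omega

end Vale.Agent.Lib.P147
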