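import Vale.Agent.Lib.P147.Basic

/-! # P147: regeneration times of a finite list, `Up` lists, blocks, decomposition -/

open MeasureTheory Set
open scoped ENNReal

namespace Vale.Agent.Lib.P147

variable {U V : Type*} [AddCommGroup V] (st : U → V) (ht : V →+ ℤ)

/-- level at time `r` along the list -/
def lvl (g : List U) (r : ℕ) : ℤ := ht (pos st g r)

/-- `r` is a regeneration time of `g`: strictly above everything before, weakly below everything
after -/
def IsRegen (g : List U) (r : ℕ) : Prop :=
  r ≤ g.length ∧ (∀ a < r, lvl st ht g a < lvl st ht g r) ∧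
    ∀ a, r ≤ a → lvl st ht g r ≤ lvl st ht g a

/-- lists that stay at level at least `0` and reach their final level only at the end -/
def Up (g : List U) : Prop := IsRegen st ht g 0 ∧ IsRegen st ht g g.length

/-- nonempty `Up` lists without interior regeneration time -/
def Block (b : List U) : Prop :=
  b ≠ [] ∧ Up st ht b ∧ ∀ r, 0 < r → r < b.length → ¬ IsRegen st ht b r

variable {st ht}

@[simp] lemma lvl_zero (g : List U) : lvl st ht g 0 = 0 := by simp [lvl]

lemma lvl_length (g : List U) : lvl st ht g g.length = ht (disp st g) := by simp [lvl]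

lemma lvl_of_length_le {g : List U} {r : ℕ} (h : g.length ≤ r) :
    lvl st ht g r = ht (disp st g) := by
  simp [lvl, pos_of_length_le st h]

lemma lvl_append_of_le {g : List U} (f : List U) {r : ℕ} (h : r ≤ g.length) :
    lvl st ht (g ++ f) r = lvl st ht g r := by
  simp [lvl, pos_append_of_le st f h]

lemma lvl_append_add (g f : List U) (r : ℕ) :
    lvl st ht (g ++ f) (g.length + r) = ht (disp st g) + lvl st ht f r := by
  simp [lvl, pos_append_add]

lemma lvl_take (g : List U) (k r : ℕ) : lvl st ht (g.take k) r = lvl st ht g (min k r) := by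
  simp [lvl, pos_take]

lemma lvl_drop (g : List U) (k r : ℕ) :
    lvl st ht (g.drop k) r = lvl st ht g (k + r) - lvl st ht g k := by
  simp [lvl, pos_drop]

lemma up_iff {g : List U} : Up st ht g ↔
    (∀ a, 0 ≤ lvl st ht g a) ∧ ∀ a < g.length, lvl st ht g a < ht (disp st g) := by
  constructor
  · rintro ⟨⟨_, _, h1⟩, ⟨_, h2, _⟩⟩
    refine ⟨fun a => ?_, fun a ha => ?_⟩
    · simpa using h1 a (Nat.zero_le a)
    · simpa [lvl_length] using h2 a ha
  · rintro ⟨h1, h2⟩
    refine ⟨⟨Nat.zero_le _, by simp, fun a _ => by simpa using h1 a⟩,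
      ⟨le_rfl, fun a ha => by simpa [lvl_length] using h2 a ha, fun a ha => ?_⟩⟩
    rw [lvl_of_length_le ha, lvl_length]

lemma Up.nonneg {g : List U} (h : Up st ht g) (a : ℕ) : 0 ≤ lvl st ht g a :=
  (up_iff.1 h).1 a

lemma Up.lt_end {g : List U} (h : Up st ht g) {a : ℕ} (ha : a < g.length) :
    lvl st ht g a < ht (disp st g) := (up_iff.1 h).2 a ha

lemma Up.disp_nonneg {g : List U} (h : Up st ht g) : 0 ≤ ht (disp st g) := by
  have := h.nonneg g.length
  rwa [lvl_length] at this

lemma up_nil : Up st ht ([] : List U) := by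
  rw [up_iff]
  exact ⟨fun a => by simp [lvl, pos], fun a ha => absurd ha (by simp)⟩

lemma Up.regen_zero {g : List U} (h : Up st ht g) : IsRegen st ht g 0 := h.1
lemma Up.regen_length {g : List U} (h : Up st ht g) : IsRegen st ht g g.length := h.2

lemma Block.up {b : List U} (h : Block st ht b) : Up st ht b := h.2.1
lemma Block.ne_nil {b : List U} (h : Block st ht b) : b ≠ [] := h.1
lemma Block.length_pos {b : List U} (h : Block st ht b) : 0 < b.length :=
  List.length_pos_iff.2 h.1

/-- the three-piece decomposition of an `Up` list around a time `r` -/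
lemma exists_triple {g : List U} (hg : Up st ht g) {r : ℕ} (hr : r < g.length) :
    ∃ g1 b g2, g = g1 ++ (b ++ g2) ∧ g1.length ≤ r ∧ r < g1.length + b.length ∧
      Up st ht g1 ∧ Block st ht b ∧ Up st ht g2 := by
  classical
  have hex : ∃ t, r < t ∧ IsRegen st ht g t := ⟨g.length, hr, hg.2⟩
  let r2 := Nat.find hex
  have hr2 : r < r2 ∧ IsRegen st ht g r2 := Nat.find_spec hex
  have hr2min : ∀ t, t < r2 → ¬ (r < t ∧ IsRegen st ht g t) := fun t ht' => Nat.find_min hex ht'
  let r1 := Nat.findGreatest (IsRegen st ht g) r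
  have hr1 : IsRegen st ht g r1 := Nat.findGreatest_spec (m := 0) (Nat.zero_le r) hg.1
  have hr1le : r1 ≤ r := Nat.findGreatest_le r
  have hr1max : ∀ t, r1 < t → t ≤ r → ¬ IsRegen st ht g t :=
    fun t h1 h2 => Nat.findGreatest_is_greatest h1 h2
  have hr12 : r1 < r2 := lt_of_le_of_lt hr1le hr2.1
  have hr2len : r2 ≤ g.length := hr2.2.1
  -- the pieces
  let g1 := g.take r1
  let b := (g.take r2).drop r1
  let g2 := g.drop r2
  have hlen1 : g1.length = r1 := by simp [g1]; omega
  have hlenb : b.length = r2 - r1 := by simp [b]; omega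
  have hdecomp : g = g1 ++ (b ++ g2) := by
    have h1 : g1 = (g.take r2).take r1 := by
      simp only [g1, List.take_take]
      rw [min_eq_left hr12.le]
    rw [← List.append_assoc, h1, List.take_append_drop, List.take_append_drop]
  -- levels of the middle piece
  have hlvlb : ∀ a, lvl st ht b a = lvl st ht g (min r2 (r1 + a)) - lvl st ht g r1 := by
    intro a
    simp only [b, lvl_drop, lvl_take]
    rw [min_eq_right hr12.le]
  have hdispb : ht (disp st b) = lvl st ht g r2 - lvl st ht g r1 := by
    have := hlvlb b.length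
    rw [lvl_length, hlenb] at this
    rw [this]
    congr 2
    rw [min_eq_left]; omega
  have hupb : Up st ht b := by
    rw [up_iff]
    refine ⟨fun a => ?_, fun a ha => ?_⟩
    · rw [hlvlb]
      have := hr1.2.2 (min r2 (r1 + a)) (by omega)
      omega
    · rw [hlvlb, hdispb]
      rw [hlenb] at ha
      have h1 : min r2 (r1 + a) = r1 + a := min_eq_right (by omega)
      rw [h1]
      have := hr2.2.2.1 (r1 + a) (by omega)
      omega
  refine ⟨g1, b, g2, hdecomp, by omega, by omega, ?_, ⟨?_, hupb, ?_⟩, ?_⟩
  · -- `g1` is Up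
    rw [up_iff]
    refine ⟨fun a => ?_, fun a ha => ?_⟩
    · simp only [g1, lvl_take]; exact hg.nonneg _
    · rw [hlen1] at ha
      have h1 : ht (disp st g1) = lvl st ht g r1 := rfl
      rw [h1]
      simp only [g1, lvl_take]
      rw [min_eq_right ha.le]
      exact hr1.2.1 a ha
  · intro h
    have : b.length = 0 := by simp [h]
    omega
  · -- no interior regeneration time
    intro t ht0 htb hreg
    rw [hlenb] at htb
    have hlv : ∀ a, a ≤ t → lvl st ht b a = lvl st ht g (r1 + a) - lvl st ht g r1 := by
      intro a ha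
      rw [hlvlb, min_eq_right (by omega)]
    have hreg' : IsRegen st ht g (r1 + t) := by
      refine ⟨by omega, fun a ha => ?_, fun a ha => ?_⟩
      · by_cases har : a < r1
        · have h1 := hr1.2.1 a har
          have h2 := hr1.2.2 (r1 + t) (by omega)
          omega
        · obtain ⟨a', rfl⟩ : ∃ a', a = r1 + a' := ⟨a - r1, by omega⟩
          have h3 := hreg.2.1 a' (by omega)
          rw [hlv a' (by omega), hlv t le_rfl] at h3
          omega
      · by_cases har : a ≤ r2
        · obtain ⟨a', rfl⟩ : ∃ a', a = r1 + a' := ⟨a - r1, by omega⟩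
          have h3 := hreg.2.2 a' (by omega)
          rw [hlv t le_rfl, hlvlb, min_eq_right (by omega)] at h3
          omega
        · have h4 := hr2.2.2.2 a (by omega)
          have h3 := hreg.2.2 (r2 - r1) (by omega)
          rw [hlv t le_rfl, hlvlb, min_eq_left (by omega)] at h3
          omega
    by_cases hcase : r1 + t ≤ r
    · exact hr1max _ (by omega) hcase hreg'
    · exact hr2min _ (by omega) ⟨by omega, hreg'⟩
  · -- `g2` is Up
    rw [up_iff]
    have hlvl2 : ∀ a, lvl st ht g2 a = lvl st ht g (r2 + a) - lvl st ht g r2 := fun a => lvl_drop g r2 a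
    have hlen2 : g2.length = g.length - r2 := by simp [g2]
    refine ⟨fun a => ?_, fun a ha => ?_⟩
    · rw [hlvl2]
      have := hr2.2.2.2 (r2 + a) (by omega)
      omega
    · have h1 : ht (disp st g2) = lvl st ht g g.length - lvl st ht g r2 := by
        have := hlvl2 g2.length
        rw [lvl_length, hlen2, Nat.add_sub_cancel' hr2len] at this
        exact this
      rw [h1, hlvl2]
      rw [hlen2] at ha
      have h2 := hg.lt_end (a := r2 + a) (by omega)
      rw [lvl_length]
      omega

/-- an `Up` list splits off a last block -/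
lemma exists_last_block {g : List U} (hg : Up st ht g) (hne : g ≠ []) :
    ∃ g' b, g = g' ++ b ∧ Up st ht g' ∧ Block st ht b := by
  have hlen : 0 < g.length := List.length_pos_iff.2 hne
  obtain ⟨g1, b, g2, h, h1, h2, hg1, hb, hg2⟩ := exists_triple hg (r := g.length - 1) (by omega)
  have hl : g.length = g1.length + (b.length + g2.length) := by
    rw [h]; simp
  have hg20 : g2 = [] := by
    apply List.eq_nil_of_length_eq_zero
    omega
  exact ⟨g1, b, by rw [h, hg20]; simp, hg1, hb⟩

section Weights

variable [MeasurableSpace U] {Q : Measure (ℕ → U)}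

lemma Model.split (m : Model st Q) {g f : List U}
    (h1 : ∀ a < g.length, ht (pos st g a) < ht (disp st g)) (h2 : ∀ b, 0 ≤ ht (pos st f b)) :
    Q (cyl (g ++ f)) = Q (cyl g) * Q (cyl f) := by
  refine m.w1 g f fun a ha b _ heq => ?_
  have h3 := h1 a ha
  have h4 := h2 b
  rw [heq, map_add] at h3
  omega

lemma Model.split_up (m : Model st Q) {g f : List U} (hg : Up st ht g) (hf : Up st ht f) :
    Q (cyl (g ++ f)) = Q (cyl g) * Q (cyl f) :=
  m.split (ht := ht) (fun _ ha => hg.lt_end ha) (fun b => hf.nonneg b)

lemma Up.nonneg_append {b g : List U} (hb : Up st ht b) (hg : Up st ht g) (a : ℕ) :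
    0 ≤ ht (pos st (b ++ g) a) := by
  by_cases ha : a ≤ b.length
  · rw [pos_append_of_le st g ha]; exact hb.nonneg a
  · obtain ⟨a', rfl⟩ : ∃ a', a = b.length + a' := ⟨a - b.length, by omega⟩
    rw [pos_append_add, map_add]
    have h1 := hb.disp_nonneg
    have h2 := hg.nonneg a'
    simp only [lvl] at h2
    omega

lemma Model.triple (m : Model st Q) {g1 b g2 : List U} (h1 : Up st ht g1) (h2 : Up st ht b)
    (h3 : Up st ht g2) :
    Q (cyl (g1 ++ (b ++ g2))) = Q (cyl g1) * (Q (cyl b) * Q (cyl g2)) := by
  rw [m.split (ht := ht) (fun _ ha => h1.lt_end ha) (h2.nonneg_append h3), m.split_up h2 h3]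

end Weights

/-- two nested lists in a common cylinder -/
lemma eq_take_of_mem_cyl {g g' : List U} {s : ℕ → U} (h : s ∈ cyl g) (h' : s ∈ cyl g')
    (hle : g.length ≤ g'.length) : g'.take g.length = g := by
  have h1 : pre s g'.length = g' := h'
  have h2 : pre s g.length = g := h
  conv_lhs => rw [← h1]
  rw [take_pre, min_eq_left hle, h2]

/-- the `Up` lists with a fixed final level are first-arrival lists, hence at most one of them
is an initial segment of a given sequence -/
lemma up_eq_of_mem_cyl {g g' : List U} (hg : Up st ht g) (hg' : Up st ht g')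
    (hT : ht (disp st g) = ht (disp st g')) {s : ℕ → U} (h : s ∈ cyl g) (h' : s ∈ cyl g') :
    g = g' := by
  have key : ∀ {g g' : List U}, Up st ht g → Up st ht g' → ht (disp st g) = ht (disp st g') →
      s ∈ cyl g → s ∈ cyl g' → g.length ≤ g'.length → g = g' := by
    intro g g' hg hg' hT h h' hle
    have ht1 := eq_take_of_mem_cyl h h' hle
    by_cases hlt : g.length < g'.length
    · exfalso
      have h1 := hg'.lt_end hlt
      have h2 : lvl st ht g' g.length = ht (disp st g) := by
        simp only [lvl, pos]; rw [ht1]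
      omega
    · have : g.length = g'.length := by omega
      rw [this, List.take_of_length_le le_rfl] at ht1
      exact ht1.symm
  rcases le_total g.length g'.length with hle | hle
  · exact key hg hg' hT h h' hle
  · exact (key hg' hg hT.symm h' h hle).symm

/-- level along a step sequence -/
def lvS (st : U → V) (ht : V →+ ℤ) (s : ℕ → U) (n : ℕ) : ℤ := ht (X st s n)

@[simp] lemma lvS_zero (s : ℕ → U) : lvS st ht s 0 = 0 := by simp [lvS]

lemma lvS_add (s : ℕ → U) (m n : ℕ) :
    lvS st ht s (m + n) = lvS st ht s m + lvS st ht (shift m s) n := by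
  simp [lvS, X_add]

lemma lvl_pre (s : ℕ → U) (m n : ℕ) : lvl st ht (pre s n) m = lvS st ht s (min m n) := by
  simp [lvl, lvS, pos_pre]

/-- the first arrival at level `T` of a sequence with non-negative levels is an `Up` list -/
lemma exists_first_arrival (hstep : ∀ e, ht (st e) ≤ 1) {s : ℕ → U}
    (hpos : ∀ m, 0 ≤ lvS st ht s m) {T : ℤ} (hT : 0 ≤ T) {m : ℕ} (hm : T ≤ lvS st ht s m) :
    ∃ τ, τ ≤ m ∧ Up st ht (pre s τ) ∧ ht (disp st (pre s τ)) = T := by
  classical
  have hex : ∃ m, T ≤ lvS st ht s m := ⟨m, hm⟩
  let τ := Nat.find hex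
  have h1 : T ≤ lvS st ht s τ := Nat.find_spec hex
  have h2 : ∀ a < τ, lvS st ht s a < T := fun a ha => not_le.1 (Nat.find_min hex ha)
  have h3 : lvS st ht s τ = T := by
    rcases hτ : τ with _ | n
    · rw [hτ] at h1
      simp only [lvS_zero] at h1 ⊢
      omega
    · have h4 := h2 n (by omega)
      have h5 : lvS st ht s (n + 1) = lvS st ht s n + ht (st (s n)) := by
        simp [lvS, X_succ]
      have h6 := hstep (s n)
      rw [hτ] at h1
      omega
  refine ⟨τ, Nat.find_min' hex hm, ?_, h3⟩
  rw [up_iff]
  refine ⟨fun a => ?_, fun a ha => ?_⟩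
  · rw [lvl_pre]; exact hpos _
  · rw [length_pre] at ha
    rw [lvl_pre, min_eq_left ha.le]
    have : ht (disp st (pre s τ)) = lvS st ht s τ := rfl
    rw [this, h3]
    exact h2 a ha

end Vale.Agent.Lib.P147
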